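import Vale.Agent.P159.T1.H857.CorrDual
import Vale.Agent.P159.Bdl.B8

/-!
The two-point function of `ℤ²` is at least the ratio of two sums over heights on the faces of a
square block, for all couplings `0 ≤ J e ≤ b` which vanish on the bonds with an end point on the
boundary of the block.
-/

open MeasureTheory Filter Topology

namespace Vale.Agent.P159.T1.H857

open Vale.Agent.P159 Vale.Agent.P159.H353 Vale.Agent.P159.R2.H254

/-- the spin at `v`: pinned off the inner sites -/
noncomputable def opt (N : ℕ) (v : ℤ × ℤ) : Option (inner (N + 1)) :=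
  if h : v ∈ inner (N + 1) then some ⟨v, h⟩ else none

/-- first end point -/
noncomputable def pB {N : ℕ} (e : Eb N) : Option (inner (N + 1)) := opt N (bst e)

/-- second end point -/
noncomputable def qB {N : ℕ} (e : Eb N) : Option (inner (N + 1)) := opt N (ben e)

lemma opt_eq {N : ℕ} {v : ℤ × ℤ} {w : inner (N + 1)} : opt N v = some w ↔ v = w.1 := by
  unfold opt
  split_ifs with h
  · rw [Option.some_inj, Subtype.ext_iff]
  · constructor
    · intro h'
      exact absurd h' (by simp)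
    · intro h'
      exact absurd (h' ▸ w.2) h

lemma dvg_block {N : ℕ} (n : Eb N → ℤ) (v : inner (N + 1)) : dvg pB qB n v = bdv n v.1 := by
  unfold dvg bdv pB qB
  refine Finset.sum_congr rfl fun e _ => ?_
  simp only [opt_eq]

lemma bdv_add {N : ℕ} (n n' : Eb N → ℤ) (v : ℤ × ℤ) :
    bdv (fun e => n e + n' e) v = bdv n v + bdv n' v := by
  unfold bdv
  rw [← Finset.sum_add_distrib]
  refine Finset.sum_congr rfl fun e _ => ?_
  split_ifs <;> ring

lemma bdv_sub {N : ℕ} (n n' : Eb N → ℤ) (v : ℤ × ℤ) :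
    bdv (fun e => n e - n' e) v = bdv n v - bdv n' v := by
  unfold bdv
  rw [← Finset.sum_sub_distrib]
  refine Finset.sum_congr rfl fun e _ => ?_
  split_ifs <;> ring

/-- duality for the block with arbitrary couplings, complex gauge field and charges; `n0` is a
reference current -/
theorem ZG_block {N : ℕ} {J : Eb N → ℝ} (hJ : ∀ e, 0 ≤ J e) (u : Eb N → ℂ)
    (m : inner (N + 1) → ℤ) (n0 : Eb N → ℤ) (hn0 : ∀ v, m v + bdv n0 v.1 = 0) :
    HasSum (fun h : Hgt N => ((∏ e, wI (J e) (bcur h.1 e + n0 e) : ℝ) : ℂ) *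
      Complex.exp (Complex.I * ∑ e, u e * ((bcur h.1 e + n0 e : ℤ) : ℂ))) (ZG pB qB J u m) := by
  refine ZG_heights (H := Hgt N) pB qB hJ u m (fun h e => bcur h.1 e + n0 e) ?_ ?_ ?_
  · intro h h' hh
    apply bcur_inj
    funext e
    have := congrFun hh e
    simp only at this
    show bcur h.1 e = bcur h'.1 e
    linarith
  · intro h v
    rw [dvg_block, bdv_add, bdv_cur]
    have := hn0 v
    linarith
  · intro n hn
    obtain ⟨h, hh⟩ := bcur_surj (fun e => n e - n0 e) (fun w => by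
      rw [bdv_sub]
      have h1 := hn w
      rw [dvg_block] at h1
      have h2 := hn0 w
      linarith)
    refine ⟨h, ?_⟩
    funext e
    have := congrFun hh e
    show bcur h.1 e + n0 e = n e
    rw [this]
    ring

/-- the sum over the heights on the faces of the block with reference current `n0` -/
noncomputable def ZB {N : ℕ} (J : Eb N → ℝ) (n0 : Eb N → ℤ) : ℝ :=
  ∑' h : Hgt N, ∏ e, wI (J e) (bcur h.1 e + n0 e)

/-- the couplings between the inner sites -/
noncomputable def JA {N : ℕ} (J : Eb N → ℝ) (u v : inner (N + 1)) : ℝ :=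
  ∑ e, if bst e = u.1 ∧ ben e = v.1 then J e else 0

lemma energy_JA {N : ℕ} {J : Eb N → ℝ}
    (hbd : ∀ e, (bst e ∉ inner (N + 1) ∨ ben e ∉ inner (N + 1)) → J e = 0)
    (θ : inner (N + 1) → T) :
    XY.energy (JA J) θ = ∑ e, J e * cosT (dO pB qB θ e) := by
  unfold XY.energy JA
  have h1 : ∀ u v : inner (N + 1), (∑ e, if bst e = u.1 ∧ ben e = v.1 then J e else 0) *
      XY.ct (θ u - θ v) =
      ∑ e, if bst e = u.1 then (if ben e = v.1 then J e * XY.ct (θ u - θ v) else 0) else 0 := by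
    intro u v
    rw [Finset.sum_mul]
    refine Finset.sum_congr rfl fun e _ => ?_
    by_cases h1 : bst e = u.1 <;> by_cases h2 : ben e = v.1 <;> simp [h1, h2]
  simp_rw [h1]
  have h2 : ∀ u : inner (N + 1), ∑ v : inner (N + 1), ∑ e : Eb N, (if bst e = u.1 then
      (if ben e = v.1 then J e * XY.ct (θ u - θ v) else 0) else 0) =
      ∑ e : Eb N, ∑ v : inner (N + 1), (if bst e = u.1 then
      (if ben e = v.1 then J e * XY.ct (θ u - θ v) else 0) else 0) := fun u => Finset.sum_comm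
  simp_rw [h2]
  rw [Finset.sum_comm]
  refine Finset.sum_congr rfl fun e _ => ?_
  by_cases hb : bst e ∉ inner (N + 1) ∨ ben e ∉ inner (N + 1)
  · rw [hbd e hb]
    simp
  push Not at hb
  obtain ⟨hs, hn⟩ := hb
  rw [Finset.sum_eq_single (⟨bst e, hs⟩ : inner (N + 1))]
  · rw [Finset.sum_eq_single (⟨ben e, hn⟩ : inner (N + 1))]
    · simp only [if_true]
      unfold dO pB qB opt
      rw [dif_pos hs, dif_pos hn]
      rfl
    · intro b _ hb
      have : ben e ≠ b.1 := fun h => hb (Subtype.ext h.symm)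
      simp [this]
    · intro h
      exact absurd (Finset.mem_univ _) h
  · intro b _ hb
    have : bst e ≠ b.1 := fun h => hb (Subtype.ext h.symm)
    simp [this]
  · intro h
    exact absurd (Finset.mem_univ _) h

lemma ben_eq {N : ℕ} (e : Eb N) : ben e = bst e + (1, 0) ∨ ben e = bst e + (0, 1) := by
  rcases e with p | p
  · right
    simp [ben, bst]
  · left
    simp [ben, bst]

lemma bond_inj {N : ℕ} {e e' : Eb N} (h1 : bst e = bst e') (h2 : ben e = ben e') : e = e' := by
  rcases e with ⟨a, c⟩ | ⟨a, c⟩ <;> rcases e' with ⟨a', c'⟩ | ⟨a', c'⟩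
  · simp only [bst, Prod.mk.injEq, add_left_inj, Nat.cast_inj] at h1
    rw [Sum.inl.injEq, Prod.mk.injEq]
    exact ⟨Fin.ext h1.1, Fin.ext h1.2⟩
  · exfalso
    simp only [bst, ben, Prod.mk.injEq] at h1 h2
    omega
  · exfalso
    simp only [bst, ben, Prod.mk.injEq] at h1 h2
    omega
  · simp only [bst, Prod.mk.injEq, add_left_inj, Nat.cast_inj] at h1
    rw [Sum.inr.injEq, Prod.mk.injEq]
    exact ⟨Fin.ext h1.1, Fin.ext h1.2⟩

lemma JA_le {N : ℕ} {J : Eb N → ℝ} {b : ℝ} (hb : 0 ≤ b) (hJb : ∀ e, J e ≤ b)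
    (u v : inner (N + 1)) : JA J u v ≤ nn b u.1 v.1 := by
  unfold JA
  by_cases h : ∃ e : Eb N, bst e = u.1 ∧ ben e = v.1
  · obtain ⟨e, he1, he2⟩ := h
    rw [Finset.sum_eq_single e]
    · rw [if_pos ⟨he1, he2⟩]
      unfold nn
      rw [← he1, ← he2, if_pos (ben_eq e)]
      exact hJb e
    · intro e' _ hne
      rw [if_neg]
      rintro ⟨h1, h2⟩
      exact hne (bond_inj (h1.trans he1.symm) (h2.trans he2.symm))
    · intro h
      exact absurd (Finset.mem_univ _) h
  · rw [Finset.sum_eq_zero]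
    · exact XY.nn_nonneg hb _ _
    · intro e _
      rw [if_neg]
      exact fun h' => h ⟨e, h'⟩

lemma JA_nonneg {N : ℕ} {J : Eb N → ℝ} (hJ : ∀ e, 0 ≤ J e) (u v : inner (N + 1)) :
    0 ≤ JA J u v := by
  unfold JA
  exact Finset.sum_nonneg fun e _ => by split_ifs <;> [exact hJ e; exact le_rfl]

lemma ZGB_integrand {N : ℕ} {J : Eb N → ℝ}
    (hbd : ∀ e, (bst e ∉ inner (N + 1) ∨ ben e ∉ inner (N + 1)) → J e = 0)
    (θ : inner (N + 1) → T) :
    ∏ e, Complex.exp (J e * cosC (dO pB qB θ e) ((0 : Eb N → ℂ) e)) =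
      ((Real.exp (XY.energy (JA J) θ) : ℝ) : ℂ) := by
  rw [energy_JA hbd, ← Complex.exp_sum, Complex.ofReal_exp]
  congr 1
  push_cast
  refine Finset.sum_congr rfl fun e _ => ?_
  rw [Pi.zero_apply, cosC_zero']

theorem ZGB_re_one {N : ℕ} {J : Eb N → ℝ}
    (hbd : ∀ e, (bst e ∉ inner (N + 1) ∨ ben e ∉ inner (N + 1)) → J e = 0)
    (x y : inner (N + 1)) :
    (ZG pB qB J 0 (chg x y 1)).re = XY.un (JA J) (fun θ => XY.ct (θ x - θ y)) := by
  unfold ZG XY.un
  simp only [ZGB_integrand hbd, prod_chg]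
  have hce : Continuous fun θ : inner (N + 1) → T => Real.exp (XY.energy (JA J) θ) := by
    have := XY.continuous_energy (JA J)
    fun_prop
  have hc : Continuous fun θ : inner (N + 1) → T => (fourier 1 (θ x - θ y) : ℂ) *
      ((Real.exp (XY.energy (JA J) θ) : ℝ) : ℂ) := by
    refine Continuous.mul ((fourier 1).continuous.comp ((continuous_apply x).sub
      (continuous_apply y))) ?_
    exact Complex.continuous_ofReal.comp hce
  have : IsProbabilityMeasure (torusHaar (inner (N + 1))) := by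
    unfold torusHaar; infer_instance
  have hi : Integrable (fun θ : inner (N + 1) → T => (fourier 1 (θ x - θ y) : ℂ) *
      ((Real.exp (XY.energy (JA J) θ) : ℝ) : ℂ)) (torusHaar (inner (N + 1))) :=
    hc.integrable_of_hasCompactSupport (HasCompactSupport.of_compactSpace _)
  have h1 := integral_re (𝕜 := ℂ) hi
  have h2 : (∫ θ : inner (N + 1) → T, (fourier 1 (θ x - θ y) : ℂ) *
      ((Real.exp (XY.energy (JA J) θ) : ℝ) : ℂ) ∂torusHaar (inner (N + 1))).re =
      ∫ θ : inner (N + 1) → T, ((fourier 1 (θ x - θ y) : ℂ) *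
      ((Real.exp (XY.energy (JA J) θ) : ℝ) : ℂ)).re ∂torusHaar (inner (N + 1)) := h1.symm
  rw [h2]
  refine integral_congr_ae (Eventually.of_forall fun θ => ?_)
  simp only
  rw [Complex.re_mul_ofReal, fourier_one_re]
  rfl

theorem ZGB_re_zero {N : ℕ} {J : Eb N → ℝ}
    (hbd : ∀ e, (bst e ∉ inner (N + 1) ∨ ben e ∉ inner (N + 1)) → J e = 0) :
    (ZG pB qB J 0 0).re = XY.part (JA J) := by
  unfold ZG XY.part
  simp only [ZGB_integrand hbd]
  have h0 : ∀ θ : inner (N + 1) → T,
      ∏ v, (fourier ((0 : inner (N + 1) → ℤ) v) (θ v) : ℂ) = 1 := fun θ =>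
    Finset.prod_eq_one fun v _ => by simp
  simp only [h0, one_mul]
  have h1 : ∫ θ : inner (N + 1) → T, ((Real.exp (XY.energy (JA J) θ) : ℝ) : ℂ)
        ∂torusHaar (inner (N + 1)) =
      ((∫ θ : inner (N + 1) → T, Real.exp (XY.energy (JA J) θ) ∂torusHaar (inner (N + 1)) : ℝ)
        : ℂ) := integral_ofReal
  rw [h1, Complex.ofReal_re]
  rfl

lemma hasSum_ZB {N : ℕ} {J : Eb N → ℝ} (hJ : ∀ e, 0 ≤ J e) (m : inner (N + 1) → ℤ)
    (n0 : Eb N → ℤ) (hn0 : ∀ v, m v + bdv n0 v.1 = 0) :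
    HasSum (fun h : Hgt N => ∏ e, wI (J e) (bcur h.1 e + n0 e)) (ZG pB qB J 0 m).re := by
  have h2 := Complex.hasSum_re (ZG_block hJ 0 m n0 hn0)
  have h3 : (fun h : Hgt N => ∏ e, wI (J e) (bcur h.1 e + n0 e)) = fun h : Hgt N =>
      (((∏ e, wI (J e) (bcur h.1 e + n0 e) : ℝ) : ℂ) * Complex.exp (Complex.I *
        ∑ e, (0 : Eb N → ℂ) e * ((bcur h.1 e + n0 e : ℤ) : ℂ))).re := by
    funext k
    simp only [Pi.zero_apply, zero_mul, Finset.sum_const_zero, mul_zero, Complex.exp_zero,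
      mul_one, Complex.ofReal_re]
  rw [h3]
  exact h2

/-- **The bridge.** The correlation function of `ℤ²` is at least the ratio of the height sums of any
block with couplings `0 ≤ J ≤ b` which vanish on the bonds to the boundary of the block. -/
theorem ratio_le_C {N : ℕ} {b : ℝ} (hb : 0 ≤ b) {J : Eb N → ℝ} (hJ : ∀ e, 0 ≤ J e)
    (hJb : ∀ e, J e ≤ b)
    (hbd : ∀ e, (bst e ∉ inner (N + 1) ∨ ben e ∉ inner (N + 1)) → J e = 0)
    (x y : inner (N + 1)) (n0 : Eb N → ℤ) (hn0 : ∀ v, chg x y 1 v + bdv n0 v.1 = 0) :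
    0 < ZB J 0 ∧ 0 ≤ ZB J n0 ∧ XY.corr (JA J) x y = ZB J n0 / ZB J 0 ∧
      ZB J n0 / ZB J 0 ≤ corrInf b (y.1 - x.1) := by
  have s0 := hasSum_ZB hJ 0 0 (fun v => by
    have : bdv (0 : Eb N → ℤ) v.1 = 0 := by
      unfold bdv
      simp
    rw [this]
    simp)
  have s1 := hasSum_ZB hJ (chg x y 1) n0 hn0
  rw [ZGB_re_zero hbd] at s0
  rw [ZGB_re_one hbd] at s1
  have t0 : ZB J 0 = XY.part (JA J) := s0.tsum_eq
  have t1 : ZB J n0 = XY.un (JA J) (fun θ => XY.ct (θ x - θ y)) := s1.tsum_eq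
  have hc : XY.corr (JA J) x y = ZB J n0 / ZB J 0 := by
    rw [t0, t1]
    rfl
  refine ⟨?_, ?_, hc, ?_⟩
  · rw [t0]
    exact XY.part_pos _
  · exact tsum_nonneg fun h => Finset.prod_nonneg fun e _ => wI_nonneg (hJ e) _
  · rw [← hc]
    have h1 : XY.corr (JA J) x y =
        XY.corr (fun u v : inner (N + 1) => (JA J u v + JA J v u) / 2) x y := by
      unfold XY.corr XY.ev XY.un XY.part
      simp_rw [XY.energy_symm]
    have h2 : XY.corr (fun u v : inner (N + 1) => (JA J u v + JA J v u) / 2) x y ≤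
        XY.KS (inner (N + 1)) b x.1 y.1 := by
      rw [XY.KS_of_mem b x.2 y.2]
      refine XY.corr_mono (fun u v => ?_) (fun u v => ?_) _ _
      · have := JA_nonneg hJ u v
        have := JA_nonneg hJ v u
        positivity
      · have h3 := JA_le hb hJb u v
        have h4 := JA_le hb hJb v u
        unfold XY.A
        rw [XY.nn_eq] at h3 h4
        linarith
    rw [h1, XY.corrInf_eq hb, ← XY.CI_eq hb]
    exact h2.trans (XY.KS_le_CI _ hb _ _)

end Vale.Agent.P159.T1.H857
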