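import Vale.Agent.P159.T1.H254.UWDefs
import Vale.Agent.P159.T1.H934.Pin

/-!
Row UW5 of the unwiring inequality: `StmtUW` follows from the subdivided inequality (`StmtUW2`),
the limit (`StmtUW3`) and the monotonicity in the deleted set (`StmtUW4`).
-/

open Filter Topology

namespace Vale.Agent.P159.T1.H857

open Vale.Agent.P159.H353 Vale.Agent.P159.T1.H254 Vale.Agent.P159.T1.H934

section basic

variable {V E : Type} [Fintype V] [DecidableEq V] [Fintype E] [DecidableEq E]
variable {s t : E → V} {om op : V} {S : Finset V}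

/-- the gradient outside `S` -/
def gr (s t : E → V) (S : Finset V) (h : V → ℤ) (e : E) : ℤ :=
  if s e ∈ S ∨ t e ∈ S then 0 else h (t e) - h (s e)

omit [Fintype V] [Fintype E] [DecidableEq E] in
lemma eq_of_gr {h h' : V → ℤ} (hg : gr s t S h = gr s t S h') {x y : V}
    (hxy : Relation.ReflTransGen (adjS s t S) x y) (hx : h x = h' x) : h y = h' y := by
  induction hxy with
  | refl => exact hx
  | @tail a b _ hab ih =>
    obtain ⟨ha, hb, e, he⟩ := hab
    have h1 := congrFun hg e
    unfold gr at h1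
    rcases he with ⟨h2, h3⟩ | ⟨h2, h3⟩
    · rw [h2, h3, if_neg (by tauto), if_neg (by tauto)] at h1
      linarith
    · rw [h2, h3, if_neg (by tauto), if_neg (by tauto)] at h1
      linarith

omit [Fintype V] [Fintype E] [DecidableEq E] in
lemma gr_inj (hj : Joined s t om op S) (k : ℤ) : Function.Injective
    (fun h : {h : V → ℤ // h om = 0 ∧ h op = k ∧ ∀ v ∈ S, h v = 0} => gr s t S h.1) := by
  rintro ⟨h, h1, h2, h3⟩ ⟨h', h1', h2', h3'⟩ hg
  simp only at hg
  apply Subtype.ext
  funext v
  show h v = h' v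
  by_cases hv : v ∈ S
  · rw [h3 v hv, h3' v hv]
  · rcases hj.2.2 v hv with h4 | h4
    · exact eq_of_gr hg h4 (by rw [h1, h1'])
    · exact eq_of_gr hg h4 (by rw [h2, h2'])

/-- the weight with the edges at `S` deleted -/
noncomputable def wS (s t : E → V) (w : E → ℤ → ℝ) (S : Finset V) (h : V → ℤ) : ℝ :=
  ∏ e, if s e ∈ S ∨ t e ∈ S then 1 else w e (h (t e) - h (s e))

omit [Fintype V] [DecidableEq E] in
theorem summable_wS {w : E → ℤ → ℝ} (hw : ∀ e, Summable fun n => |w e n|)
    (hj : Joined s t om op S) (k : ℤ) :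
    Summable fun h : {h : V → ℤ // h om = 0 ∧ h op = k ∧ ∀ v ∈ S, h v = 0} =>
      |wS s t w S h.1| := by
  have h1 := (prod_real (E := E) (ι := ℤ)
    (a := fun e n => if s e ∈ S ∨ t e ∈ S then (if n = 0 then 1 else 0) else w e n) (by
      intro e
      by_cases he : s e ∈ S ∨ t e ∈ S
      · simp only [he, if_true]
        refine summable_of_ne_finset_zero (s := {0}) fun n hn => ?_
        rw [Finset.mem_singleton] at hn
        simp [hn]
      · simp only [he, if_false]
        exact hw e)).1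
  refine (h1.comp_injective (gr_inj hj k)).congr fun h => ?_
  simp only [Function.comp]
  congr 1
  unfold wS
  refine Finset.prod_congr rfl fun e _ => ?_
  unfold gr
  by_cases he : s e ∈ S ∨ t e ∈ S
  · simp only [he, if_true]
  · simp only [he, if_false]

omit [Fintype V] [DecidableEq E] in
lemma ZS_eq (w : E → ℤ → ℝ) (k : ℤ) : ZS s t w om op S k =
    ∑' h : {h : V → ℤ // h om = 0 ∧ h op = k ∧ ∀ v ∈ S, h v = 0}, wS s t w S h.1 := rfl

omit [Fintype V] [DecidableEq E] in
lemma wS_nonneg {w : E → ℤ → ℝ} (hw : ∀ e n, 0 ≤ w e n) (h : V → ℤ) : 0 ≤ wS s t w S h := by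
  unfold wS
  refine Finset.prod_nonneg fun e _ => ?_
  split_ifs
  · exact zero_le_one
  · exact hw e _

omit [Fintype V] [DecidableEq E] in
theorem ZS_nonneg {w : E → ℤ → ℝ} (hw : ∀ e n, 0 ≤ w e n) (k : ℤ) :
    0 ≤ ZS s t w om op S k := by
  rw [ZS_eq]
  exact tsum_nonneg fun h => wS_nonneg hw h.1

omit [Fintype V] [DecidableEq E] [DecidableEq V] in
theorem ZP_nonneg {w : E → ℤ → ℝ} (hw : ∀ e n, 0 ≤ w e n) (f : V) :
    0 ≤ ZP s t w om op f := by
  unfold ZP
  exact tsum_nonneg fun h => Finset.prod_nonneg fun e _ => hw e _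

omit [Fintype V] [DecidableEq E] in
theorem ZS_zero_pos {w : E → ℤ → ℝ} (hw : ∀ e n, 0 ≤ w e n) (hw0 : ∀ e, 0 < w e 0)
    (hs : ∀ e, Summable fun n => |w e n|) (hj : Joined s t om op S) :
    0 < ZS s t w om op S 0 := by
  rw [ZS_eq]
  have h1 : Summable fun h : {h : V → ℤ // h om = 0 ∧ h op = 0 ∧ ∀ v ∈ S, h v = 0} =>
      wS s t w S h.1 := by
    refine (summable_wS hs hj 0).congr fun h => ?_
    exact abs_of_nonneg (wS_nonneg hw h.1)
  refine h1.tsum_pos (fun h => wS_nonneg hw h.1) ⟨0, rfl, rfl, fun _ _ => rfl⟩ ?_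
  unfold wS
  refine Finset.prod_pos fun e _ => ?_
  split_ifs
  · exact zero_lt_one
  · simpa using hw0 e

end basic

/-- **UW5.** The unwiring inequality from its rows. -/
theorem uw5 (h2 : StmtUW2) (h3 : StmtUW3) (h4 : StmtUW4) : StmtUW := by
  intro V E _ _ _ _ s t J om op f hJ hfo hfp hop hj hjf
  have hJ0 : ∀ e, 0 ≤ J e := fun e => (hJ e).le
  set w : E → ℤ → ℝ := fun e => wI (J e) with hw
  have hwn : ∀ e n, 0 ≤ w e n := fun e n => wI_nonneg (hJ0 e) n
  have hw0 : ∀ e, 0 < w e 0 := fun e => wI_zero_pos (hJ0 e)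
  have hws : ∀ e, Summable fun n => |w e n| := fun e => (summable_wI (hJ0 e)).abs
  obtain ⟨l1, l2⟩ := h3 V E s t J om op f hJ0 hj
  set A := ZS s t w om op {f} 1 with hA
  set B := ZS s t w om op {f} 0 with hB
  set P := ZP s t w om op f with hP
  set Z := ZS s t w om op ∅ 1 with hZ
  have hA0 : 0 ≤ A := ZS_nonneg hwn 1
  have hB0 : 0 < B := ZS_zero_pos hwn hw0 hws hjf
  have hP0 : 0 ≤ P := ZP_nonneg hwn f
  have hZ0 : 0 ≤ Z := ZS_nonneg hwn 1
  have key : ∀ r : ℝ, 0 ≤ r → r * B < A → 2 * r * P ≤ Z := by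
    intro r hr hrA
    have e1 : ∀ᶠ m : ℕ in atTop, ∀ S : Finset V, f ∈ S → Joined s t om op S →
        r * ZS s t (fun e => kerP (J e / (2 * m)) m) om op S 0 ≤
          ZS s t (fun e => kerP (J e / (2 * m)) m) om op S 1 := by
      rw [eventually_all]
      intro S
      by_cases hf : f ∈ S
      · by_cases hS : Joined s t om op S
        · have h5 : r * ZS s t w om op S 0 < ZS s t w om op S 1 := by
            have h6 := h4 V E s t J om op hJ {f} S (Finset.singleton_subset_iff.2 hf) hjf hS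
            have h7 : 0 < ZS s t w om op S 0 := ZS_zero_pos hwn hw0 hws hS
            have h8 : r * B * ZS s t w om op S 0 < A * ZS s t w om op S 0 :=
              mul_lt_mul_of_pos_right hrA h7
            have h9 : r * ZS s t w om op S 0 * B < ZS s t w om op S 1 * B := by
              calc r * ZS s t w om op S 0 * B = r * B * ZS s t w om op S 0 := by ring
                _ < A * ZS s t w om op S 0 := h8
                _ ≤ _ := h6
            exact lt_of_mul_lt_mul_right h9 hB0.le
          have h10 := ((l1 S hS 0).const_mul r).eventually_lt (l1 S hS 1) h5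
          exact h10.mono fun m hm _ _ => hm.le
        · exact Eventually.of_forall fun m _ h => absurd h hS
      · exact Eventually.of_forall fun m h => absurd h hf
    have e2 : ∀ᶠ m : ℕ in atTop, ∀ e, J e ≤ m := by
      rw [eventually_all]
      intro e
      exact tendsto_natCast_atTop_atTop.eventually_ge_atTop (J e)
    have e3 : ∀ᶠ m : ℕ in atTop, 2 * r * ZP s t (fun e => kerP (J e / (2 * m)) m) om op f ≤
        ZS s t (fun e => kerP (J e / (2 * m)) m) om op ∅ 1 := by
      filter_upwards [e1, e2, eventually_gt_atTop 0] with m hm1 hm2 hm3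
      exact h2 V E s t J om op f hJ0 hfo hfp hop hj m hm3 hm2 r hr hm1
    exact le_of_tendsto_of_tendsto (l2.const_mul (2 * r)) (l1 ∅ hj 1) e3
  rcases hA0.eq_or_lt with h0 | hpos
  · rw [← h0, mul_zero]
    positivity
  have lim : Tendsto (fun n : ℕ => 2 * (A / B * (1 - 1 / ((n : ℝ) + 1))) * P) atTop
      (𝓝 (2 * (A / B * (1 - 0)) * P)) :=
    ((((tendsto_one_div_add_atTop_nhds_zero_nat (𝕜 := ℝ)).const_sub 1).const_mul
      (A / B)).const_mul 2).mul_const P
  have h5 : 2 * (A / B * (1 - 0)) * P ≤ Z := by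
    refine le_of_tendsto' lim fun n => key _ ?_ ?_
    · have : 1 / ((n : ℝ) + 1) ≤ 1 := by
        rw [div_le_one (by positivity)]
        linarith [n.cast_nonneg (α := ℝ)]
      have h6 : 0 ≤ A / B := by positivity
      nlinarith
    · have h6 : 0 < 1 / ((n : ℝ) + 1) := by positivity
      have h7 : A / B * (1 - 1 / ((n : ℝ) + 1)) * B = A * (1 - 1 / ((n : ℝ) + 1)) := by
        field_simp
      rw [h7]
      nlinarith
  have h6 : 2 * (A / B * (1 - 0)) * P * B = 2 * P * A := by
    field_simp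
    ring
  have h7 := mul_le_mul_of_nonneg_right h5 hB0.le
  rw [h6] at h7
  exact h7

end Vale.Agent.P159.T1.H857
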