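import Vale.Agent.P159.T1.H857.CorrDual
import Vale.Agent.P159.T1.H857.UW5

/-!
Duality with contracted spins. `IsDual p q s t om op x y`: the currents with charges `k` at `x` and
`-k` at `y` are the gradients of the heights which are `0` at `om` and `k` at `op`. Deleting the
heights of a set `S` corresponds to identifying the spins which are joined by the bonds touching
`S` (`corr_contract`).
-/

open MeasureTheory Filter Topology

namespace Vale.Agent.P159.T1.H857

open Vale.Agent.P159 Vale.Agent.P159.H353 Vale.Agent.P159.R2.H254 Vale.Agent.P159.T1.H254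

/-- the heights on `V` are dual to the spins on `A` with charges at `x` and `y` -/
def IsDual {A E V : Type} [DecidableEq A] [Fintype E] (p q : E → A) (s t : E → V) (om op : V)
    (x y : A) : Prop :=
  ∀ (k : ℤ) (n : E → ℤ), (∀ v, chg x y k v + dvA p q n v = 0) ↔
    ∃ h : V → ℤ, h om = 0 ∧ h op = k ∧ ∀ e, h (t e) - h (s e) = n e

section current

variable {A E A' : Type} [Fintype A] [DecidableEq A] [Fintype E] [DecidableEq E] [DecidableEq A']

omit [Fintype A] [DecidableEq E] in
lemma dvA_add (p q : E → A) (n n' : E → ℤ) (v : A) :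
    dvA p q (fun e => n e + n' e) v = dvA p q n v + dvA p q n' v := by
  unfold dvA
  rw [← Finset.sum_add_distrib]
  refine Finset.sum_congr rfl fun e _ => ?_
  split_ifs <;> ring

omit [Fintype A] [DecidableEq E] in
lemma dvA_sum {ι : Type} (S : Finset ι) (p q : E → A) (a : ι → ℤ) (n : ι → E → ℤ) (v : A) :
    dvA p q (fun e => ∑ i ∈ S, a i * n i e) v = ∑ i ∈ S, a i * dvA p q (n i) v := by
  unfold dvA
  simp only [Finset.mul_sum]
  rw [Finset.sum_comm]
  refine Finset.sum_congr rfl fun e _ => ?_
  by_cases h1 : p e = v <;> by_cases h2 : q e = v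
  · simp only [h1, h2, if_true]
    rw [← Finset.sum_neg_distrib, ← Finset.sum_add_distrib]
    exact Finset.sum_congr rfl fun i _ => by ring
  · simp only [h1, h2, if_true, if_false, add_zero]
  · simp only [h1, h2, if_true, if_false, zero_add]
    rw [← Finset.sum_neg_distrib]
    exact Finset.sum_congr rfl fun i _ => by ring
  · simp [h1, h2]

omit [Fintype A] in
lemma dvA_single (p q : E → A) (e0 : E) (a : ℤ) (v : A) :
    dvA p q (fun e => if e = e0 then a else 0) v =
      (if p e0 = v then a else 0) + (if q e0 = v then -a else 0) := by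
  unfold dvA
  rw [Finset.sum_eq_single e0]
  · simp
  · intro e _ he
    simp [he]
  · intro h
    exact absurd (Finset.mem_univ _) h

/-- neighbours through a bond with property `F` -/
def adjF (p q : E → A) (F : E → Prop) (u v : A) : Prop :=
  ∃ e, F e ∧ ((p e = u ∧ q e = v) ∨ (p e = v ∧ q e = u))

omit [Fintype A] in
/-- the unit current along a path -/
lemma path_current (p q : E → A) (F : E → Prop) {u v : A}
    (h : Relation.ReflTransGen (adjF p q F) u v) :
    ∃ m : E → ℤ, (∀ e, ¬ F e → m e = 0) ∧
      ∀ w, dvA p q m w = (if v = w then 1 else 0) - (if u = w then 1 else 0) := by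
  induction h with
  | refl =>
    refine ⟨fun _ => 0, fun _ _ => rfl, fun w => ?_⟩
    unfold dvA
    simp
  | @tail a b _ hab ih =>
    obtain ⟨m, h1, h2⟩ := ih
    obtain ⟨e0, hF, ⟨h3, h4⟩ | ⟨h3, h4⟩⟩ := hab
    · refine ⟨fun e => m e + (if e = e0 then -1 else 0), fun e he => ?_, fun w => ?_⟩
      · have : e ≠ e0 := fun h => he (h ▸ hF)
        simp only [h1 e he, if_neg this, add_zero]
      · rw [dvA_add, h2, dvA_single, h3, h4]
        split_ifs <;> ring
    · refine ⟨fun e => m e + (if e = e0 then 1 else 0), fun e he => ?_, fun w => ?_⟩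
      · have : e ≠ e0 := fun h => he (h ▸ hF)
        simp only [h1 e he, if_neg this, add_zero]
      · rw [dvA_add, h2, dvA_single, h3, h4]
        split_ifs <;> ring

/-- charges with total `0` on every class can be routed inside the classes -/
lemma route (p q : E → A) (F : E → Prop) (c : A → A')
    (hc : ∀ u v, c u = c v → Relation.ReflTransGen (adjF p q F) u v) (ρ : A → ℤ)
    (hρ : ∀ u, ∑ v, (if c v = c u then ρ v else 0) = 0) :
    ∃ m : E → ℤ, (∀ e, ¬ F e → m e = 0) ∧ ∀ w, dvA p q m w = ρ w := by
  classical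
  rcases isEmpty_or_nonempty A with hA | hA
  · exact ⟨fun _ => 0, fun _ _ => rfl, fun w => (hA.false w).elim⟩
  have hr : ∀ v, c (Function.invFun c (c v)) = c v := fun v => Function.invFun_eq ⟨v, rfl⟩
  have h1 : ∀ v, ∃ m : E → ℤ, (∀ e, ¬ F e → m e = 0) ∧
      ∀ w, dvA p q m w = (if v = w then 1 else 0) -
        (if Function.invFun c (c v) = w then 1 else 0) := fun v =>
    path_current p q F (hc _ _ (hr v))
  choose m hm1 hm2 using h1
  refine ⟨fun e => ∑ v, ρ v * m v e, fun e he => ?_, fun w => ?_⟩
  · exact Finset.sum_eq_zero fun v _ => by rw [hm1 v e he, mul_zero]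
  · rw [dvA_sum]
    have h2 : ∀ v, ρ v * dvA p q (m v) w = (if v = w then ρ v else 0) -
        (if Function.invFun c (c v) = w then ρ v else 0) := by
      intro v
      rw [hm2]
      split_ifs <;> ring
    rw [Finset.sum_congr rfl fun v _ => h2 v, Finset.sum_sub_distrib]
    have h3 : ∑ v, (if v = w then ρ v else 0) = ρ w := by
      rw [Finset.sum_ite_eq' Finset.univ w, if_pos (Finset.mem_univ _)]
    have h4 : ∑ v, (if Function.invFun c (c v) = w then ρ v else 0) = 0 := by
      by_cases hw : Function.invFun c (c w) = w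
      · refine Eq.trans (Finset.sum_congr rfl fun v _ => ?_) (hρ w)
        by_cases h5 : c v = c w
        · rw [if_pos h5, if_pos (by rw [h5, hw])]
        · have h7 : Function.invFun c (c v) ≠ w := by
            intro h6
            apply h5
            rw [← hr v, h6]
          rw [if_neg h5, if_neg h7]
      · refine Finset.sum_eq_zero fun v _ => ?_
        rw [if_neg]
        intro h6
        apply hw
        have h7 : c w = c v := by rw [← hr v, h6]
        rw [h7, h6]
    rw [h3, h4, sub_zero]

omit [DecidableEq E] in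
lemma sum_fiber_dvA (p q : E → A) (c : A → A') (n : E → ℤ) (v' : A') :
    ∑ v, (if c v = v' then dvA p q n v else 0) = dvA (fun e => c (p e)) (fun e => c (q e)) n v' := by
  unfold dvA
  have h1 : ∀ v, (if c v = v' then ∑ e, ((if p e = v then n e else 0) +
      (if q e = v then -n e else 0)) else 0) = ∑ e, (if c v = v' then
        ((if p e = v then n e else 0) + (if q e = v then -n e else 0)) else 0) := by
    intro v
    split_ifs
    · rfl
    · simp
  rw [Finset.sum_congr rfl fun v _ => h1 v, Finset.sum_comm]
  refine Finset.sum_congr rfl fun e _ => ?_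
  have h2 : ∀ v, (if c v = v' then ((if p e = v then n e else 0) +
      (if q e = v then -n e else 0)) else 0) = (if p e = v then (if c v = v' then n e else 0)
        else 0) + (if q e = v then (if c v = v' then -n e else 0) else 0) := by
    intro v
    split_ifs <;> ring
  rw [Finset.sum_congr rfl fun v _ => h2 v, Finset.sum_add_distrib]
  simp

omit [DecidableEq E] in
lemma sum_fiber_chg (c : A → A') (x y : A) (k : ℤ) (v' : A') :
    ∑ v, (if c v = v' then chg x y k v else 0) = chg (c x) (c y) k v' := by
  unfold chg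
  have h2 : ∀ v, (if c v = v' then ((if v = x then k else 0) + (if v = y then -k else 0)) else 0) =
      (if v = x then (if c v = v' then k else 0) else 0) +
        (if v = y then (if c v = v' then -k else 0) else 0) := by
    intro v
    split_ifs <;> ring
  rw [Finset.sum_congr rfl fun v _ => h2 v, Finset.sum_add_distrib]
  simp [eq_comm]

omit [Fintype A] [DecidableEq A] [DecidableEq E] in
/-- loops do not contribute to the divergence -/
lemma dvA_restrict (p q : E → A') (F : E → Prop) [DecidablePred F]
    (hF : ∀ e, F e → p e = q e) (n : E → ℤ) (v : A') :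
    dvA p q n v = dvA (fun e : {e // ¬ F e} => p e.1) (fun e => q e.1) (fun e => n e.1) v := by
  unfold dvA
  rw [← Finset.sum_subtype (Finset.univ.filter fun e => ¬ F e) (by simp)
    (fun e => (if p e = v then n e else 0) + (if q e = v then -n e else 0)), Finset.sum_filter]
  refine Finset.sum_congr rfl fun e _ => ?_
  by_cases h : F e
  · rw [if_neg (not_not.2 h), hF e h]
    split_ifs <;> ring
  · rw [if_pos h]

/-- currents of the contracted graph are the restrictions of the currents of the graph -/
theorem contract_iff (p q : E → A) (F : E → Prop) [DecidablePred F] (c : A → A')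
    (hF : ∀ e, F e → c (p e) = c (q e))
    (hc : ∀ u v, c u = c v → Relation.ReflTransGen (adjF p q F) u v) (x y : A) (k : ℤ)
    (n' : {e // ¬ F e} → ℤ) :
    (∀ v', chg (c x) (c y) k v' +
        dvA (fun e : {e // ¬ F e} => c (p e.1)) (fun e => c (q e.1)) n' v' = 0) ↔
      ∃ n : E → ℤ, (∀ e : {e // ¬ F e}, n e.1 = n' e) ∧ ∀ v, chg x y k v + dvA p q n v = 0 := by
  constructor
  · intro h
    set n0 : E → ℤ := fun e => if he : F e then 0 else n' ⟨e, he⟩ with hn0
    have hn0' : ∀ e : {e // ¬ F e}, n0 e.1 = n' e := fun e => by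
      rw [hn0]
      simp only [dif_neg e.2]
    obtain ⟨m, hm1, hm2⟩ := route p q F c hc (fun v => -(chg x y k v + dvA p q n0 v)) (by
      intro u
      have e1 : ∀ v, (if c v = c u then -(chg x y k v + dvA p q n0 v) else 0) =
          -((if c v = c u then chg x y k v else 0) + (if c v = c u then dvA p q n0 v else 0)) := by
        intro v
        split_ifs <;> ring
      rw [Finset.sum_congr rfl fun v _ => e1 v, Finset.sum_neg_distrib, Finset.sum_add_distrib,
        sum_fiber_chg, sum_fiber_dvA,
        dvA_restrict (fun e => c (p e)) (fun e => c (q e)) F hF n0 (c u), neg_eq_zero]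
      have e2 : (fun e : {e // ¬ F e} => n0 e.1) = n' := funext hn0'
      rw [e2]
      exact h (c u))
    refine ⟨fun e => n0 e + m e, fun e => ?_, fun v => ?_⟩
    · show n0 e.1 + m e.1 = n' e
      rw [hm1 e.1 e.2, hn0' e, add_zero]
    · rw [dvA_add, hm2]
      ring
  · rintro ⟨n, hn1, hn2⟩ v'
    have e2 : n' = fun e : {e // ¬ F e} => n e.1 := funext fun e => (hn1 e).symm
    rw [e2, ← dvA_restrict (fun e => c (p e)) (fun e => c (q e)) F hF n v', ← sum_fiber_chg,
      ← sum_fiber_dvA, ← Finset.sum_add_distrib]
    refine Finset.sum_eq_zero fun v _ => ?_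
    have := hn2 v
    split_ifs
    · exact this
    · ring

end current

section main

variable {A E V A' : Type} [Fintype A] [DecidableEq A] [Fintype E] [DecidableEq E]
  [Fintype V] [DecidableEq V] [Fintype A'] [DecidableEq A']

/-- the bonds touching `S` -/
def Tch (s t : E → V) (S : Finset V) (e : E) : Prop := s e ∈ S ∨ t e ∈ S

instance (s t : E → V) (S : Finset V) : DecidablePred (Tch s t S) := fun e => by
  unfold Tch
  infer_instance

/-- the heights with boundary values `0` and `k` and deleted set `S` -/
def HS (om op : V) (S : Finset V) (k : ℤ) : Type :=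
  {h : V → ℤ // h om = 0 ∧ h op = k ∧ ∀ v ∈ S, h v = 0}

/-- the gradient off `S` -/
def gS (s t : E → V) (S : Finset V) {om op : V} {k : ℤ} (h : HS om op S k)
    (e : {e // ¬ Tch s t S e}) : ℤ := h.1 (t e.1) - h.1 (s e.1)

omit [Fintype E] [DecidableEq E] [Fintype V] in
lemma gS_inj {s t : E → V} {om op : V} {S : Finset V} (hj : Joined s t om op S) (k : ℤ) :
    Function.Injective (gS s t S (om := om) (op := op) (k := k)) := by
  intro h h' hh
  refine gr_inj (s := s) (t := t) hj k ?_
  funext e
  show gr s t S h.1 e = gr s t S h'.1 e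
  unfold gr
  by_cases he : s e ∈ S ∨ t e ∈ S
  · rw [if_pos he, if_pos he]
  · rw [if_neg he, if_neg he]
    exact congrFun hh ⟨e, he⟩

omit [DecidableEq E] [Fintype V] in
lemma ZHt_gS {s t : E → V} {om op : V} {S : Finset V} (J : E → ℝ) (k : ℤ) :
    ZHt (fun e : {e // ¬ Tch s t S e} => J e.1) (gS s t S (om := om) (op := op) (k := k)) =
      ZS s t (fun e => wI (J e)) om op S k := by
  unfold ZHt ZS
  refine tsum_congr fun h => ?_
  unfold gS
  rw [← Finset.prod_subtype (Finset.univ.filter fun e => ¬ Tch s t S e) (by simp)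
    (fun e => wI (J e) (h.1 (t e) - h.1 (s e))), Finset.prod_filter]
  refine Finset.prod_congr rfl fun e _ => ?_
  by_cases he : Tch s t S e
  · rw [if_neg (not_not.2 he), if_pos (show s e ∈ S ∨ t e ∈ S from he)]
  · rw [if_pos he, if_neg (show ¬ (s e ∈ S ∨ t e ∈ S) from he)]

omit [Fintype V] in
/-- **duality with contraction** -/
theorem corr_contract {p q : E → A} {s t : E → V} {om op : V} {x y : A}
    (hd : IsDual p q s t om op x y) {S : Finset V} (hj : Joined s t om op S) {J : E → ℝ}
    (hJ : ∀ e, 0 ≤ J e) (c : A → A') (hF : ∀ e, Tch s t S e → c (p e) = c (q e))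
    (hc : ∀ u v, c u = c v → Relation.ReflTransGen (adjF p q (Tch s t S)) u v) :
    0 < ZS s t (fun e => wI (J e)) om op S 0 ∧ 0 ≤ ZS s t (fun e => wI (J e)) om op S 1 ∧
    XY.corr (matJ (fun e : {e // ¬ Tch s t S e} => c (p e.1)) (fun e => c (q e.1))
      (fun e => J e.1)) (c x) (c y) =
      ZS s t (fun e => wI (J e)) om op S 1 / ZS s t (fun e => wI (J e)) om op S 0 := by
  have key : ∀ (k : ℤ) (n' : {e // ¬ Tch s t S e} → ℤ), (∀ v', chg (c x) (c y) k v' +
        dvA (fun e : {e // ¬ Tch s t S e} => c (p e.1)) (fun e => c (q e.1)) n' v' = 0) ↔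
      ∃ h : HS om op S k, gS s t S h = n' := by
    intro k n'
    rw [contract_iff p q (Tch s t S) c hF hc x y k n']
    constructor
    · rintro ⟨n, hn1, hn2⟩
      obtain ⟨h, h1, h2, h3⟩ := (hd k n).1 hn2
      refine ⟨⟨fun v => if v ∈ S then 0 else h v, ?_, ?_, ?_⟩, ?_⟩
      · show (if om ∈ S then 0 else h om) = 0
        rw [if_neg hj.1, h1]
      · show (if op ∈ S then 0 else h op) = k
        rw [if_neg hj.2.1, h2]
      · intro v hv
        show (if v ∈ S then 0 else h v) = 0
        rw [if_pos hv]
      · funext e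
        have he : ¬ (s e.1 ∈ S ∨ t e.1 ∈ S) := e.2
        unfold gS
        simp only
        rw [if_neg (fun h => he (Or.inr h)), if_neg (fun h => he (Or.inl h)), h3, hn1]
    · rintro ⟨h, rfl⟩
      exact ⟨fun e => h.1 (t e) - h.1 (s e), fun e => rfl,
        (hd k _).2 ⟨h.1, h.2.1, h.2.2.1, fun e => rfl⟩⟩
  have h := corr_dual (fun e : {e // ¬ Tch s t S e} => c (p e.1)) (fun e => c (q e.1))
    (J := fun e => J e.1) (fun e => hJ e.1) (c x) (c y) (gS s t S (om := om) (op := op) (k := 0))
    (gS s t S (om := om) (op := op) (k := 1)) (gS_inj hj 0) (gS_inj hj 1)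
    (fun n => by
      rw [← key 0 n]
      simp only [chg_zero, zero_add]) (key 1)
  rw [ZHt_gS, ZHt_gS] at h
  exact h

omit [Fintype V] in
/-- duality without contraction -/
theorem corr_ZS {p q : E → A} {s t : E → V} {om op : V} {x y : A}
    (hd : IsDual p q s t om op x y) (hj : Joined s t om op ∅) {J : E → ℝ} (hJ : ∀ e, 0 ≤ J e) :
    0 < ZS s t (fun e => wI (J e)) om op ∅ 0 ∧ 0 ≤ ZS s t (fun e => wI (J e)) om op ∅ 1 ∧
    XY.corr (matJ p q J) x y =
      ZS s t (fun e => wI (J e)) om op ∅ 1 / ZS s t (fun e => wI (J e)) om op ∅ 0 := by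
  have h1 := corr_contract hd hj hJ (A' := A) id
    (fun e he => by
      unfold Tch at he
      simp at he)
    (fun u v huv => by
      have : u = v := huv
      rw [this])
  have h2 : matJ (fun e : {e // ¬ Tch s t (∅ : Finset V) e} => id (p e.1)) (fun e => id (q e.1))
      (fun e => J e.1) = matJ p q J := by
    funext u v
    unfold matJ
    refine Eq.trans (Finset.sum_subtype (Finset.univ.filter fun e => ¬ Tch s t (∅ : Finset V) e)
      (by simp) (fun e => if p e = u ∧ q e = v then J e else 0)).symm ?_
    refine Finset.sum_congr ?_ fun _ _ => rfl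
    ext e
    unfold Tch
    simp
  rw [h2] at h1
  exact h1

end main

end Vale.Agent.P159.T1.H857
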