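import Vale.Agent.P159.T1.H857.Dual
import Vale.Agent.P159.Bdl.B3
import Vale.Agent.P159.R2.H254.Link

/-!
The two-point function of the XY model on a finite graph (bonds `e : E` from `p e` to `q e`) as a
ratio of sums over integer heights, for every parametrisation of the currents by heights.
-/

open MeasureTheory Filter Topology

namespace Vale.Agent.P159.T1.H857

open Vale.Agent.P159 Vale.Agent.P159.H353 Vale.Agent.P159.R2.H254

variable {A E : Type} [Fintype A] [DecidableEq A] [Fintype E]

/-- the couplings as a matrix -/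
def matJ (p q : E → A) (J : E → ℝ) (u v : A) : ℝ := ∑ e, if p e = u ∧ q e = v then J e else 0

/-- divergence of a current -/
def dvA (p q : E → A) (n : E → ℤ) (v : A) : ℤ :=
  ∑ e, ((if p e = v then n e else 0) + (if q e = v then -n e else 0))

/-- the charges `k` at `x` and `-k` at `y` -/
def chg (x y : A) (k : ℤ) (v : A) : ℤ := (if v = x then k else 0) + (if v = y then -k else 0)

omit [Fintype A] in
lemma dvg_some (p q : E → A) (n : E → ℤ) (v : A) :
    dvg (fun e => some (p e)) (fun e => some (q e)) n v = dvA p q n v := by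
  unfold dvg dvA
  simp

omit [Fintype A] in
lemma matJ_nonneg {p q : E → A} {J : E → ℝ} (hJ : ∀ e, 0 ≤ J e) (u v : A) : 0 ≤ matJ p q J u v :=
  Finset.sum_nonneg fun e _ => by split_ifs <;> [exact hJ e; exact le_rfl]

lemma energy_matJ (p q : E → A) (J : E → ℝ) (θ : A → T) :
    XY.energy (matJ p q J) θ = ∑ e, J e * cosT (θ (p e) - θ (q e)) := by
  unfold XY.energy matJ
  have h1 : ∀ u v : A, (∑ e, if p e = u ∧ q e = v then J e else 0) * XY.ct (θ u - θ v) =
      ∑ e, if p e = u then (if q e = v then J e * XY.ct (θ u - θ v) else 0) else 0 := by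
    intro u v
    rw [Finset.sum_mul]
    refine Finset.sum_congr rfl fun e _ => ?_
    by_cases h1 : p e = u <;> by_cases h2 : q e = v <;> simp [h1, h2]
  simp_rw [h1]
  have h2 : ∀ u : A, ∑ v, ∑ e, (if p e = u then (if q e = v then J e * XY.ct (θ u - θ v) else 0)
      else 0) = ∑ e, ∑ v, (if p e = u then (if q e = v then J e * XY.ct (θ u - θ v) else 0)
      else 0) := fun u => Finset.sum_comm
  simp_rw [h2]
  rw [Finset.sum_comm]
  refine Finset.sum_congr rfl fun e _ => ?_
  rw [Finset.sum_eq_single (p e)]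
  · rw [Finset.sum_eq_single (q e)]
    · simp only [if_true]
      rfl
    · intro b _ hb
      simp [hb.symm]
    · intro h
      exact absurd (Finset.mem_univ _) h
  · intro b _ hb
    simp [hb.symm]
  · intro h
    exact absurd (Finset.mem_univ _) h

lemma fourier_one_re (x : T) : ((fourier 1 x : ℂ)).re = cosT x := by
  induction x using QuotientAddGroup.induction_on with
  | H r =>
    have h := fourier_re 1 r
    rw [Int.cast_one, one_mul] at h
    show ((fourier 1 ((r : ℝ) : T) : ℂ)).re = Real.Angle.cos ((r : ℝ) : Real.Angle)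
    rw [h, Real.Angle.cos_coe]

lemma prod_chg (θ : A → T) (x y : A) :
    ∏ v, (fourier (chg x y 1 v) (θ v) : ℂ) = (fourier 1 (θ x - θ y) : ℂ) := by
  have h1 : ∀ v, (fourier (chg x y 1 v) (θ v) : ℂ) =
      (fourier (if v = x then 1 else 0) (θ v) : ℂ) *
        (fourier (if v = y then -1 else 0) (θ v) : ℂ) := fun v => fourier_add
  simp only [h1]
  rw [Finset.prod_mul_distrib, sub_eq_add_neg, fourier_add_arg, fourier_neg_arg]
  congr 1
  · rw [Finset.prod_eq_single x]
    · rw [if_pos rfl]
    · intro v _ hv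
      rw [if_neg hv]
      simp
    · intro h
      exact absurd (Finset.mem_univ _) h
  · rw [Finset.prod_eq_single y]
    · rw [if_pos rfl]
    · intro v _ hv
      rw [if_neg hv]
      simp
    · intro h
      exact absurd (Finset.mem_univ _) h

omit [Fintype A] in
lemma chg_zero (x y v : A) : chg x y 0 v = 0 := by
  unfold chg
  simp

lemma cosC_zero' (x : T) : cosC x 0 = (cosT x : ℂ) := by
  unfold cosC
  rw [Complex.cos_zero, Complex.sin_zero, mul_one, mul_zero, sub_zero]

lemma ZG_integrand (p q : E → A) (J : E → ℝ) (θ : A → T) :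
    ∏ e, Complex.exp (J e * cosC (dO (fun e => some (p e)) (fun e => some (q e)) θ e)
      ((0 : E → ℂ) e)) = ((Real.exp (XY.energy (matJ p q J) θ) : ℝ) : ℂ) := by
  rw [energy_matJ, ← Complex.exp_sum, Complex.ofReal_exp]
  congr 1
  push_cast
  refine Finset.sum_congr rfl fun e _ => ?_
  rw [Pi.zero_apply, cosC_zero']
  rfl

lemma cont_matJ (p q : E → A) (J : E → ℝ) :
    Continuous fun θ : A → T => Real.exp (XY.energy (matJ p q J) θ) := by
  have := XY.continuous_energy (matJ p q J)
  fun_prop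

theorem ZG_re_one (p q : E → A) (J : E → ℝ) (x y : A) :
    (ZG (fun e => some (p e)) (fun e => some (q e)) J 0 (chg x y 1)).re =
      XY.un (matJ p q J) (fun θ => XY.ct (θ x - θ y)) := by
  unfold ZG XY.un
  simp only [ZG_integrand, prod_chg]
  have hc : Continuous fun θ : A → T => (fourier 1 (θ x - θ y) : ℂ) *
      ((Real.exp (XY.energy (matJ p q J) θ) : ℝ) : ℂ) := by
    refine Continuous.mul ((fourier 1).continuous.comp ((continuous_apply x).sub
      (continuous_apply y))) ?_
    exact Complex.continuous_ofReal.comp (cont_matJ p q J)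
  have : IsProbabilityMeasure (torusHaar A) := by
    unfold torusHaar; infer_instance
  have hi : Integrable (fun θ : A → T => (fourier 1 (θ x - θ y) : ℂ) *
      ((Real.exp (XY.energy (matJ p q J) θ) : ℝ) : ℂ)) (torusHaar A) :=
    hc.integrable_of_hasCompactSupport (HasCompactSupport.of_compactSpace _)
  have h1 := integral_re (𝕜 := ℂ) hi
  have h2 : (∫ θ : A → T, (fourier 1 (θ x - θ y) : ℂ) *
      ((Real.exp (XY.energy (matJ p q J) θ) : ℝ) : ℂ) ∂torusHaar A).re =
      ∫ θ : A → T, ((fourier 1 (θ x - θ y) : ℂ) *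
      ((Real.exp (XY.energy (matJ p q J) θ) : ℝ) : ℂ)).re ∂torusHaar A := h1.symm
  rw [h2]
  refine integral_congr_ae (Eventually.of_forall fun θ => ?_)
  simp only
  rw [Complex.re_mul_ofReal, fourier_one_re]
  rfl

theorem ZG_re_zero (p q : E → A) (J : E → ℝ) :
    (ZG (fun e => some (p e)) (fun e => some (q e)) J 0 0).re = XY.part (matJ p q J) := by
  unfold ZG XY.part
  simp only [ZG_integrand]
  have h0 : ∀ θ : A → T, ∏ v, (fourier ((0 : A → ℤ) v) (θ v) : ℂ) = 1 := fun θ =>
    Finset.prod_eq_one fun v _ => by simp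
  simp only [h0, one_mul]
  have h1 : ∫ θ : A → T, ((Real.exp (XY.energy (matJ p q J) θ) : ℝ) : ℂ) ∂torusHaar A =
      ((∫ θ : A → T, Real.exp (XY.energy (matJ p q J) θ) ∂torusHaar A : ℝ) : ℂ) :=
    integral_ofReal
  rw [h1, Complex.ofReal_re]
  rfl

/-- the sum over the heights `h : H` with current `c h` -/
noncomputable def ZHt {H : Type} (J : E → ℝ) (c : H → E → ℤ) : ℝ :=
  ∑' h : H, ∏ e, wI (J e) (c h e)

theorem hasSum_re_of {H : Type} (p q : E → A) {J : E → ℝ} (hJ : ∀ e, 0 ≤ J e)
    (m : A → ℤ) (c : H → E → ℤ) (hinj : Function.Injective c)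
    (hc : ∀ n : E → ℤ, (∀ v, m v + dvA p q n v = 0) ↔ ∃ h, c h = n) :
    HasSum (fun h : H => ∏ e, wI (J e) (c h e))
      (ZG (fun e => some (p e)) (fun e => some (q e)) J 0 m).re := by
  have h := ZG_heights (fun e => some (p e)) (fun e => some (q e)) hJ 0 m c hinj
    (fun h v => by rw [dvg_some]; exact (hc (c h)).2 ⟨h, rfl⟩ v)
    (fun n hn => (hc n).1 fun v => by rw [← dvg_some]; exact hn v)
  have h2 := Complex.hasSum_re h
  have h3 : (fun h : H => ∏ e, wI (J e) (c h e)) = fun k =>
      (((∏ e, wI (J e) (c k e) : ℝ) : ℂ) *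
        Complex.exp (Complex.I * ∑ e, (0 : E → ℂ) e * (c k e : ℂ))).re := by
    funext k
    simp only [Pi.zero_apply, zero_mul, Finset.sum_const_zero, mul_zero, Complex.exp_zero,
      mul_one, Complex.ofReal_re]
  rw [h3]
  exact h2

/-- **Duality.** If the currents with divergence `0` are parametrised by `c0 : H0 → E → ℤ` and those
with sources `x`, `y` by `c1 : H1 → E → ℤ`, the two-point function is the ratio of the sums. -/
theorem corr_dual {H0 H1 : Type} (p q : E → A) {J : E → ℝ} (hJ : ∀ e, 0 ≤ J e) (x y : A)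
    (c0 : H0 → E → ℤ) (c1 : H1 → E → ℤ) (h0 : Function.Injective c0) (h1 : Function.Injective c1)
    (e0 : ∀ n : E → ℤ, (∀ v, dvA p q n v = 0) ↔ ∃ h, c0 h = n)
    (e1 : ∀ n : E → ℤ, (∀ v, chg x y 1 v + dvA p q n v = 0) ↔ ∃ h, c1 h = n) :
    0 < ZHt J c0 ∧ 0 ≤ ZHt J c1 ∧
      XY.corr (matJ p q J) x y = ZHt J c1 / ZHt J c0 := by
  have s0 := hasSum_re_of p q hJ 0 c0 h0 (by simpa using e0)
  have s1 := hasSum_re_of p q hJ (chg x y 1) c1 h1 e1
  rw [ZG_re_zero] at s0
  rw [ZG_re_one] at s1
  have t0 : ZHt J c0 = XY.part (matJ p q J) := s0.tsum_eq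
  have t1 : ZHt J c1 = XY.un (matJ p q J) (fun θ => XY.ct (θ x - θ y)) := s1.tsum_eq
  refine ⟨?_, ?_, ?_⟩
  · rw [t0]
    exact XY.part_pos _
  · exact tsum_nonneg fun h => Finset.prod_nonneg fun e _ => wI_nonneg (hJ e) _
  · rw [t0, t1]
    rfl

end Vale.Agent.P159.T1.H857
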