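import Vale.Agent.P159.R2.H254.Expand

/-!
Duality for the XY model on an arbitrary finite graph. The bonds `e : E` join `p e` and `q e`,
where `none` is a spin pinned to `0` and `some v` is a free spin. The partition function with
complex gauge field `u` and charges `m` is a sum over the currents with divergence `-m`
(`ZG_currents`), hence a sum over heights as soon as these currents are parametrised by heights
(`ZG_heights`).
-/

open MeasureTheory Filter Topology

namespace Vale.Agent.P159.T1.H857

open Vale.Agent.P159 Vale.Agent.P159.H353 Vale.Agent.P159.R2.H254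

variable {A E : Type} [Fintype A] [DecidableEq A] [Fintype E]

/-- extension of the spins by `0` -/
noncomputable def exO (θ : A → T) : Option A → T
  | none => 0
  | some v => θ v

/-- difference of the spins along a bond -/
noncomputable def dO (p q : E → Option A) (θ : A → T) (e : E) : T := exO θ (p e) - exO θ (q e)

/-- divergence of a current at a free site -/
def dvg (p q : E → Option A) (n : E → ℤ) (v : A) : ℤ :=
  ∑ e, ((if p e = some v then n e else 0) + (if q e = some v then -n e else 0))

/-- partition function with complex gauge field `u` and charges `m` -/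
noncomputable def ZG (p q : E → Option A) (J : E → ℝ) (u : E → ℂ) (m : A → ℤ) : ℂ :=
  ∫ θ : A → T, (∏ v, (fourier (m v) (θ v) : ℂ)) *
    ∏ e, Complex.exp (J e * cosC (dO p q θ e) (u e)) ∂torusHaar A

omit [DecidableEq A] [Fintype A] in
lemma exO_cont (x : Option A) : Continuous fun θ : A → T => exO θ x := by
  cases x with
  | none => exact continuous_const
  | some v => exact continuous_apply v

omit [DecidableEq A] [Fintype A] [Fintype E] in
lemma dO_cont (p q : E → Option A) (e : E) : Continuous fun θ : A → T => dO p q θ e :=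
  (exO_cont _).sub (exO_cont _)

lemma fourier_exO (θ : A → T) (x : Option A) (k : ℤ) :
    (fourier k (exO θ x) : ℂ) = ∏ v : A, (fourier (if x = some v then k else 0) (θ v) : ℂ) := by
  cases x with
  | none =>
    unfold exO
    rw [fourier_zero_arg]
    symm
    apply Finset.prod_eq_one
    intro v _
    simp
  | some a =>
    unfold exO
    rw [Finset.prod_eq_single a]
    · simp
    · intro v _ hv
      have : (some a : Option A) ≠ some v := fun h => hv (Option.some.inj h).symm
      rw [if_neg this]
      simp
    · intro h'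
      exact absurd (Finset.mem_univ _) h'

lemma prod_fourier_dO (p q : E → Option A) (θ : A → T) (n : E → ℤ) :
    ∏ e, (fourier (n e) (dO p q θ e) : ℂ) = ∏ v : A, (fourier (dvg p q n v) (θ v) : ℂ) := by
  have h1 : ∀ e, (fourier (n e) (dO p q θ e) : ℂ) = ∏ v : A,
      ((fourier ((if p e = some v then n e else 0) + (if q e = some v then -n e else 0)) (θ v)) :
        ℂ) := by
    intro e
    unfold dO
    rw [sub_eq_add_neg, fourier_add_arg, fourier_neg_arg, fourier_exO, fourier_exO,
      ← Finset.prod_mul_distrib]
    refine Finset.prod_congr rfl fun v _ => ?_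
    rw [fourier_add]
  simp only [h1]
  rw [Finset.prod_comm]
  refine Finset.prod_congr rfl fun v _ => ?_
  rw [fourier_sum_ix]
  rfl

omit [DecidableEq A] in
lemma integral_prod_fourierA (m : A → ℤ) :
    ∫ θ : A → T, ∏ v : A, (fourier (m v) (θ v) : ℂ) ∂torusHaar A =
      if ∀ v, m v = 0 then 1 else 0 := by
  unfold torusHaar
  rw [integral_fintype_prod_eq_prod (μ := fun _ : A => (AddCircle.haarAddCircle : Measure T))
    (fun v => fun x : T => (fourier (m v) x : ℂ))]
  simp only [integral_fourier]
  split_ifs with h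
  · apply Finset.prod_eq_one
    intro v _
    rw [if_pos (h v)]
  · push Not at h
    obtain ⟨v, hv⟩ := h
    apply Finset.prod_eq_zero (Finset.mem_univ v)
    rw [if_neg hv]

/-- the expansion in currents -/
theorem ZG_currents (p q : E → Option A) {J : E → ℝ} (hJ : ∀ e, 0 ≤ J e) (u : E → ℂ)
    (m : A → ℤ) :
    HasSum (fun n : E → ℤ => if ∀ v, m v + dvg p q n v = 0 then
      ∏ e, ((wI (J e) (n e) : ℂ) * Complex.exp (n e * (u e * Complex.I))) else 0)
      (ZG p q J u m) := by
  classical
  have hps : ∀ θ : A → T, ∏ e, Complex.exp (J e * cosC (dO p q θ e) (u e)) =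
      ∑' n : E → ℤ, ∏ e, ((wI (J e) (n e) : ℂ) *
        ((fourier (n e) (dO p q θ e) : ℂ) * Complex.exp (n e * (u e * Complex.I)))) := by
    intro θ
    have h := (prod_tsum_all ℤ E (fun e n => (wI (J e) n : ℂ) *
      ((fourier n (dO p q θ e) : ℂ) * Complex.exp (n * (u e * Complex.I)))) fun e =>
      (summable_mj (hJ e) (u e)).congr fun n => (norm_term (hJ e) _ _ n).symm).2
    rw [h]
    refine Finset.prod_congr rfl fun e _ => ?_
    exact ((hasSum_cosC (hJ e) _ _).tsum_eq).symm
  have h2 : ZG p q J u m = ∫ θ : A → T, ∑' n : E → ℤ,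
      (∏ v, (fourier (m v) (θ v) : ℂ)) * ∏ e, ((wI (J e) (n e) : ℂ) *
        ((fourier (n e) (dO p q θ e) : ℂ) * Complex.exp (n e * (u e * Complex.I))))
        ∂torusHaar A := by
    unfold ZG
    refine integral_congr_ae (Eventually.of_forall fun θ => ?_)
    show (∏ v, (fourier (m v) (θ v) : ℂ)) * ∏ e, Complex.exp (J e * cosC (dO p q θ e) (u e)) = _
    rw [hps θ, ← tsum_mul_left]
  have hcont : ∀ n : E → ℤ, Continuous fun θ : A → T =>
      (∏ v, (fourier (m v) (θ v) : ℂ)) * ∏ e, ((wI (J e) (n e) : ℂ) *
        ((fourier (n e) (dO p q θ e) : ℂ) * Complex.exp (n e * (u e * Complex.I)))) := by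
    intro n
    refine Continuous.mul (continuous_finsetProd _ fun v _ =>
      (fourier (m v)).continuous.comp (continuous_apply v)) ?_
    refine continuous_finsetProd _ fun e _ => ?_
    exact continuous_const.mul (((fourier (n e)).continuous.comp (dO_cont p q e)).mul
      continuous_const)
  have hnorm : ∀ (n : E → ℤ) (θ : A → T),
      ‖(∏ v, (fourier (m v) (θ v) : ℂ)) * ∏ e, ((wI (J e) (n e) : ℂ) *
        ((fourier (n e) (dO p q θ e) : ℂ) * Complex.exp (n e * (u e * Complex.I))))‖ =
        ∏ e, mj (J e) (u e) (n e) := by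
    intro n θ
    rw [norm_mul, norm_prod, norm_prod]
    have e1 : ∏ v, ‖(fourier (m v) (θ v) : ℂ)‖ = 1 :=
      Finset.prod_eq_one fun v _ => fourier_norm_one _ _
    rw [e1, one_mul]
    exact Finset.prod_congr rfl fun e _ => norm_term (hJ e) _ _ _
  have : IsProbabilityMeasure (torusHaar A) := by
    unfold torusHaar; infer_instance
  have hint : ∀ n : E → ℤ, ∫ θ : A → T,
      (∏ v, (fourier (m v) (θ v) : ℂ)) * ∏ e, ((wI (J e) (n e) : ℂ) *
        ((fourier (n e) (dO p q θ e) : ℂ) * Complex.exp (n e * (u e * Complex.I))))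
        ∂torusHaar A =
      if ∀ v, m v + dvg p q n v = 0 then
      ∏ e, ((wI (J e) (n e) : ℂ) * Complex.exp (n e * (u e * Complex.I))) else 0 := by
    intro n
    have e1 : ∀ θ : A → T,
        (∏ v, (fourier (m v) (θ v) : ℂ)) * ∏ e, ((wI (J e) (n e) : ℂ) *
          ((fourier (n e) (dO p q θ e) : ℂ) * Complex.exp (n e * (u e * Complex.I)))) =
        (∏ e, ((wI (J e) (n e) : ℂ) * Complex.exp (n e * (u e * Complex.I)))) *
          ∏ v : A, (fourier (m v + dvg p q n v) (θ v) : ℂ) := by
      intro θ
      have e2 : ∏ v : A, (fourier (m v + dvg p q n v) (θ v) : ℂ) =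
          (∏ v, (fourier (m v) (θ v) : ℂ)) * ∏ e, (fourier (n e) (dO p q θ e) : ℂ) := by
        rw [prod_fourier_dO, ← Finset.prod_mul_distrib]
        exact Finset.prod_congr rfl fun v _ => fourier_add
      have e3 : ∏ e, ((wI (J e) (n e) : ℂ) *
          ((fourier (n e) (dO p q θ e) : ℂ) * Complex.exp (n e * (u e * Complex.I)))) =
          (∏ e, ((wI (J e) (n e) : ℂ) * Complex.exp (n e * (u e * Complex.I)))) *
            ∏ e, (fourier (n e) (dO p q θ e) : ℂ) := by
        rw [← Finset.prod_mul_distrib]
        exact Finset.prod_congr rfl fun e _ => by ring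
      rw [e2, e3]
      ring
    simp only [e1]
    rw [integral_const_mul, integral_prod_fourierA]
    split_ifs <;> simp
  have hsum : Summable fun n : E → ℤ => ∏ e, mj (J e) (u e) (n e) := by
    have h := (prod_tsum_all ℤ E (fun e n => (mj (J e) (u e) n : ℂ)) fun e =>
      (summable_mj (hJ e) (u e)).congr fun n => by
        rw [Complex.norm_real, Real.norm_eq_abs, abs_of_nonneg (mj_nonneg (hJ e) _ _)]).1
    refine h.congr fun n => ?_
    rw [norm_prod]
    refine Finset.prod_congr rfl fun e _ => ?_
    rw [Complex.norm_real, Real.norm_eq_abs, abs_of_nonneg (mj_nonneg (hJ e) _ _)]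
  have := hasSum_integral_of_summable_integral_norm (μ := torusHaar A)
    (F := fun (n : E → ℤ) (θ : A → T) =>
      (∏ v, (fourier (m v) (θ v) : ℂ)) * ∏ e, ((wI (J e) (n e) : ℂ) *
        ((fourier (n e) (dO p q θ e) : ℂ) * Complex.exp (n e * (u e * Complex.I)))))
    (fun n => ((hcont n).integrable_of_hasCompactSupport
        (HasCompactSupport.of_compactSpace _))) ?_
  · rw [h2]
    simp only [hint] at this
    exact this
  · simp only [hnorm]
    refine hsum.congr fun n => ?_
    simp

/-- the expansion in heights: `c` parametrises the currents with divergence `-m` -/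
theorem ZG_heights {H : Type} (p q : E → Option A) {J : E → ℝ} (hJ : ∀ e, 0 ≤ J e) (u : E → ℂ)
    (m : A → ℤ) (c : H → E → ℤ) (hinj : Function.Injective c)
    (hc : ∀ h v, m v + dvg p q (c h) v = 0)
    (hs : ∀ n : E → ℤ, (∀ v, m v + dvg p q n v = 0) → ∃ h, c h = n) :
    HasSum (fun h : H => ((∏ e, wI (J e) (c h e) : ℝ) : ℂ) *
      Complex.exp (Complex.I * ∑ e, u e * (c h e : ℂ))) (ZG p q J u m) := by
  have h := ZG_currents p q hJ u m
  have h2 := (hinj.hasSum_iff (f := fun n : E → ℤ =>
      if ∀ v, m v + dvg p q n v = 0 then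
      ∏ e, ((wI (J e) (n e) : ℂ) * Complex.exp (n e * (u e * Complex.I))) else 0)
      (a := ZG p q J u m) ?_).2 h
  · refine hs_congr h2 fun k => ?_
    simp only [Function.comp]
    rw [if_pos (hc k), Finset.prod_mul_distrib, ← Complex.exp_sum]
    push_cast
    congr 2
    rw [Finset.mul_sum]
    exact Finset.sum_congr rfl fun e _ => by ring
  · intro n hn
    rw [if_neg]
    intro hw
    exact hn (hs n hw)

end Vale.Agent.P159.T1.H857
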