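import Vale.Agent.P159.T1.H897.Fkg
import Vale.Agent.P159.T1.H254.UWDefsC
import Vale.Agent.P159.T1.H857.UW5

/-!
Product form of the FKG inequality for pinned heights and its application to the events that the
`{h ≤ 0}` clusters of `om` and `op` miss the sets `B i`: the probability to miss all of them is at
least the product of the probabilities.
-/

open Filter Topology

namespace Vale.Agent.P159.T1.H857

open Vale.Agent.P159.H353 Vale.Agent.P159.T1.H254 Vale.Agent.P159.T1.H897

section prod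

variable {V E : Type} [Fintype V] [Fintype E] {s t : E → V}

/-- unnormalised mean over the heights which vanish on `P` -/
noncomputable def SP (s t : E → V) (w : E → ℤ → ℝ) (P : Set V) (F : (V → ℤ) → ℝ) : ℝ :=
  ∑' h : pin P (0 : V → ℤ), Wk s t w h * F h

omit [Fintype V] in
lemma summable_SP {w : E → ℤ → ℝ} (w0 : ∀ e n, 0 ≤ w e n) {P : Set V}
    (hs : Summable fun h : pin P (0 : V → ℤ) => Wk s t w h) {F : (V → ℤ) → ℝ}
    (h0 : ∀ h, 0 ≤ F h) (h1 : ∀ h, F h ≤ 1) :
    Summable fun h : pin P (0 : V → ℤ) => Wk s t w h * F h := by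
  refine Summable.of_nonneg_of_le (fun h => mul_nonneg (Wk_nonneg w0 _) (h0 _)) (fun h => ?_) hs
  exact mul_le_of_le_one_right (Wk_nonneg w0 _) (h1 _)

omit [Fintype V] in
lemma SP_nonneg {w : E → ℤ → ℝ} (w0 : ∀ e n, 0 ≤ w e n) {P : Set V} {F : (V → ℤ) → ℝ}
    (h0 : ∀ h, 0 ≤ F h) : 0 ≤ SP s t w P F :=
  tsum_nonneg fun _ => mul_nonneg (Wk_nonneg w0 _) (h0 _)

omit [Fintype V] in
/-- product form of the FKG inequality -/
theorem fkg_prod {w : E → ℤ → ℝ} (w0 : ∀ e n, 0 ≤ w e n) (hw : ∀ e, LogC (w e))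
    {P : Set V} (hs : Summable fun h : pin P (0 : V → ℤ) => Wk s t w h)
    (hZ : 0 < ∑' h : pin P (0 : V → ℤ), Wk s t w h)
    {ι : Type} (S : Finset ι) (f : ι → (V → ℤ) → ℝ) (hf : ∀ i, Monotone (f i))
    (h0 : ∀ i h, 0 ≤ f i h) (h1 : ∀ i h, f i h ≤ 1) :
    ∏ i ∈ S, (SP s t w P (f i) / ∑' h : pin P (0 : V → ℤ), Wk s t w h) ≤
      SP s t w P (fun h => ∏ i ∈ S, f i h) / ∑' h : pin P (0 : V → ℤ), Wk s t w h := by
  classical
  set Z := ∑' h : pin P (0 : V → ℤ), Wk s t w h with hZdef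
  induction S using Finset.induction_on with
  | empty =>
    simp only [Finset.prod_empty]
    unfold SP
    simp only [mul_one]
    rw [← hZdef, div_self hZ.ne']
  | insert a S ha ih =>
    rw [Finset.prod_insert ha]
    have hg0 : ∀ h, 0 ≤ ∏ i ∈ S, f i h := fun h => Finset.prod_nonneg fun i _ => h0 i h
    have hg1 : ∀ h, ∏ i ∈ S, f i h ≤ 1 := fun h =>
      Finset.prod_le_one (fun i _ => h0 i h) fun i _ => h1 i h
    have hgm : Monotone fun h => ∏ i ∈ S, f i h := by
      intro h h' hh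
      exact Finset.prod_le_prod (fun i _ => h0 i h) fun i _ => hf i hh
    have hfkg := fkg_on (A := pin P (0 : V → ℤ)) (μ := Wk s t w) (f := f a)
      (g := fun h => ∏ i ∈ S, f i h) (pin_le fun _ _ => le_rfl) (Wk_nonneg w0) (hol_Wk w0 hw)
      (hf a) hgm hs (summable_SP w0 hs (h0 a) (h1 a)) (summable_SP w0 hs hg0 hg1)
      (summable_SP (F := fun h => f a h * ∏ i ∈ S, f i h) w0 hs
        (fun h => mul_nonneg (h0 a h) (hg0 h))
        (fun h => mul_le_one₀ (h1 a h) (hg0 h) (hg1 h)))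
    have e1 : SP s t w P (fun h => ∏ i ∈ insert a S, f i h) =
        ∑' h : pin P (0 : V → ℤ), Wk s t w h * (f a h * ∏ i ∈ S, f i h) := by
      unfold SP
      refine tsum_congr fun h => ?_
      show Wk s t w h * ∏ i ∈ insert a S, f i h = _
      rw [Finset.prod_insert ha]
    rw [e1]
    calc SP s t w P (f a) / Z * ∏ i ∈ S, (SP s t w P (f i) / Z)
        ≤ SP s t w P (f a) / Z * (SP s t w P (fun h => ∏ i ∈ S, f i h) / Z) :=
          mul_le_mul_of_nonneg_left ih (div_nonneg (SP_nonneg w0 (h0 a)) hZ.le)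
      _ = (SP s t w P (f a) * SP s t w P (fun h => ∏ i ∈ S, f i h)) / (Z * Z) := by
          rw [div_mul_div_comm]
      _ ≤ (Z * ∑' h : pin P (0 : V → ℤ), Wk s t w h * (f a h * ∏ i ∈ S, f i h)) / (Z * Z) :=
          div_le_div_of_nonneg_right hfkg (by positivity)
      _ = _ := by
          field_simp

end prod

section ker

/-- the unit step kernel is log-concave -/
lemma logC_ker {β : ℝ} (h0 : 0 ≤ β) (h1 : β ≤ 1) : LogC (H254.ker 1 β) := by
  intro a b c d h2 h3 h4
  have hk0 : ∀ n, 0 ≤ H254.ker 1 β n := fun n => by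
    unfold H254.ker
    split_ifs <;> [exact zero_le_one; exact h0; exact le_rfl]
  by_cases ha : 1 < |a|
  · have : H254.ker 1 β a = 0 := by
      unfold H254.ker
      rw [if_neg (by rintro rfl; simp at ha), if_neg (by omega)]
    rw [this, zero_mul]
    exact mul_nonneg (hk0 _) (hk0 _)
  by_cases hd : 1 < |d|
  · have : H254.ker 1 β d = 0 := by
      unfold H254.ker
      rw [if_neg (by rintro rfl; simp at hd), if_neg (by omega)]
    rw [this, mul_zero]
    exact mul_nonneg (hk0 _) (hk0 _)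
  have ha' : -1 ≤ a ∧ a ≤ 1 := abs_le.1 (not_lt.1 ha)
  have hd' : -1 ≤ d ∧ d ≤ 1 := abs_le.1 (not_lt.1 hd)
  have k0 : H254.ker 1 β 0 = 1 := by simp [H254.ker]
  have k1 : H254.ker 1 β 1 = β := by simp [H254.ker]
  have k2 : H254.ker 1 β (-1) = β := by simp [H254.ker]
  have hb : -1 ≤ b ∧ b ≤ 1 := by omega
  have hc : -1 ≤ c ∧ c ≤ 1 := by omega
  obtain ⟨a1, a2⟩ := ha'
  obtain ⟨d1, d2⟩ := hd'
  obtain ⟨b1, b2⟩ := hb
  obtain ⟨c1, c2⟩ := hc
  interval_cases a <;> interval_cases d <;> interval_cases b <;> interval_cases c <;>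
    first
      | (exfalso; omega)
      | (simp only [k0, k1, k2]; nlinarith)

end ker

section miss

variable {V E : Type} [Fintype V] [DecidableEq V] [Fintype E] [DecidableEq E]
variable {s t : E → V} {om op : V}

omit [Fintype V] [DecidableEq V] [Fintype E] [DecidableEq E] in
lemma Miss_mono {B : Finset V} {h h' : V → ℤ} (hh : h ≤ h') (hm : Miss s t om op B h) :
    Miss s t om op B h' := by
  have key : ∀ x v, Relation.ReflTransGen (lowA s t h') x v →
      Relation.ReflTransGen (lowA s t h) x v := by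
    intro x v hxv
    induction hxv with
    | refl => exact Relation.ReflTransGen.refl
    | @tail a b _ hab ih => exact ih.tail ⟨(hh a).trans hab.1, (hh b).trans hab.2.1, hab.2.2⟩
  exact fun v hv => ⟨fun h1 => (hm v hv).1 (key _ _ h1), fun h1 => (hm v hv).2 (key _ _ h1)⟩

omit [Fintype V] [Fintype E] [DecidableEq E] in
lemma Miss_biUnion {ι : Type} (S : Finset ι) (B : ι → Finset V) (h : V → ℤ) :
    Miss s t om op (S.biUnion B) h ↔ ∀ i ∈ S, Miss s t om op (B i) h := by
  unfold Miss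
  simp only [Finset.mem_biUnion]
  constructor
  · intro h1 i hi v hv
    exact h1 v ⟨i, hi, hv⟩
  · rintro h1 v ⟨i, hi, hv⟩
    exact h1 i hi v hv

open Classical in
/-- indicator of the event that the clusters miss `B` -/
noncomputable def mI (s t : E → V) (om op : V) (B : Finset V) (h : V → ℤ) : ℝ :=
  if Miss s t om op B h then 1 else 0

omit [Fintype V] [DecidableEq V] [Fintype E] [DecidableEq E] in
lemma mI_mono (B : Finset V) : Monotone (mI s t om op B) := by
  intro h h' hh
  unfold mI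
  split_ifs with h1 h2 h2
  · exact le_rfl
  · exact absurd (Miss_mono hh h1) h2
  · exact zero_le_one
  · exact le_rfl

omit [Fintype V] [DecidableEq V] [Fintype E] [DecidableEq E] in
lemma mI_nonneg (B : Finset V) (h : V → ℤ) : 0 ≤ mI s t om op B h := by
  unfold mI; split_ifs <;> norm_num

omit [Fintype V] [DecidableEq V] [Fintype E] [DecidableEq E] in
lemma mI_le_one (B : Finset V) (h : V → ℤ) : mI s t om op B h ≤ 1 := by
  unfold mI; split_ifs <;> norm_num

omit [Fintype V] [Fintype E] [DecidableEq E] in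
lemma mI_biUnion {ι : Type} (S : Finset ι) (B : ι → Finset V) (h : V → ℤ) :
    ∏ i ∈ S, mI s t om op (B i) h = mI s t om op (S.biUnion B) h := by
  unfold mI
  by_cases hm : ∀ i ∈ S, Miss s t om op (B i) h
  · rw [if_pos ((Miss_biUnion S B h).2 hm)]
    exact Finset.prod_eq_one fun i hi => if_pos (hm i hi)
  · rw [if_neg fun h' => hm ((Miss_biUnion S B h).1 h')]
    push Not at hm
    obtain ⟨i, hi, hn⟩ := hm
    exact Finset.prod_eq_zero hi (if_neg hn)

omit [Fintype V] [DecidableEq V] [DecidableEq E] in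
/-- `ZM` as a sum over the heights pinned at `om`, `op` -/
lemma ZM_eq_SP (w : E → ℤ → ℝ) (B : Finset V) :
    ZM s t w om op B = SP s t w {om, op} (mI s t om op B) := by
  unfold ZM SP
  rw [tsum_on (pin ({om, op} : Set V) (0 : V → ℤ)) (fun h => Wk s t w h * mI s t om op B h)]
  have h1 := tsum_subtype {h : V → ℤ | h om = 0 ∧ h op = 0 ∧ Miss s t om op B h} (Wk s t w)
  refine (Eq.trans ?_ h1).trans ?_
  · rfl
  · refine tsum_congr fun h => ?_
    have h6 : h ∈ pin ({om, op} : Set V) (0 : V → ℤ) ↔ h om = 0 ∧ h op = 0 := by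
      unfold pin
      simp
    have h7 : h ∈ {h : V → ℤ | h om = 0 ∧ h op = 0 ∧ Miss s t om op B h} ↔
        h om = 0 ∧ h op = 0 ∧ Miss s t om op B h := Iff.rfl
    unfold Set.indicator mI
    simp only [h6, h7]
    by_cases h2 : h om = 0 ∧ h op = 0
    · by_cases h3 : Miss s t om op B h
      · rw [if_pos ⟨h2.1, h2.2, h3⟩, if_pos h2, if_pos h3]
        ring
      · rw [if_neg (fun h' => h3 h'.2.2), if_pos h2, if_neg h3]
        ring
    · rw [if_neg (fun h' => h2 ⟨h'.1, h'.2.1⟩), if_neg h2]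
      ring

omit [Fintype V] [DecidableEq E] in
/-- `ZS` without deleted vertices as a sum over the heights pinned at `om`, `op` -/
lemma ZS_eq_SP (w : E → ℤ → ℝ) :
    ZS s t w om op ∅ 0 = ∑' h : pin ({om, op} : Set V) (0 : V → ℤ), Wk s t w h := by
  have h1 := tsum_subtype {h : V → ℤ | h om = 0 ∧ h op = 0 ∧ ∀ v ∈ (∅ : Finset V), h v = 0}
    (Wk s t w)
  have h2 := tsum_subtype (pin ({om, op} : Set V) (0 : V → ℤ)) (Wk s t w)
  have h3 : ZS s t w om op ∅ 0 = ∑' h : ({h : V → ℤ | h om = 0 ∧ h op = 0 ∧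
      ∀ v ∈ (∅ : Finset V), h v = 0} : Set (V → ℤ)), Wk s t w h := by
    unfold ZS
    refine tsum_congr fun h => ?_
    unfold Wk
    refine Finset.prod_congr rfl fun e _ => ?_
    simp
  rw [h3, h1]
  refine Eq.trans ?_ h2.symm
  refine tsum_congr fun h => ?_
  have h4 : {h : V → ℤ | h om = 0 ∧ h op = 0 ∧ ∀ v ∈ (∅ : Finset V), h v = 0} =
      pin ({om, op} : Set V) (0 : V → ℤ) := by
    ext h
    unfold pin
    simp
  rw [h4]

omit [Fintype V] [DecidableEq E] in
lemma summable_pin {w : E → ℤ → ℝ} (hw : ∀ e, Summable fun n => |w e n|)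
    (w0 : ∀ e n, 0 ≤ w e n) (hj : Joined s t om op ∅) :
    Summable fun h : pin ({om, op} : Set V) (0 : V → ℤ) => Wk s t w h := by
  have h1 := summable_wS (s := s) (t := t) hw hj 0
  let φ : pin ({om, op} : Set V) (0 : V → ℤ) → {h : V → ℤ // h om = 0 ∧ h op = 0 ∧
      ∀ v ∈ (∅ : Finset V), h v = 0} := fun h =>
    ⟨h.1, h.2 om (by simp), h.2 op (by simp), by simp⟩
  have hφ : Function.Injective φ := by
    intro h h' hh
    apply Subtype.ext
    exact congrArg (fun x => x.1) hh
  refine (h1.comp_injective hφ).congr fun h => ?_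
  simp only [Function.comp]
  show |wS s t w ∅ h.1| = _
  rw [abs_of_nonneg (wS_nonneg w0 _)]
  unfold wS Wk
  refine Finset.prod_congr rfl fun e _ => ?_
  simp

omit [Fintype V] in
/-- **Product form of the cost of unwiring.** -/
theorem prod_miss {w : E → ℤ → ℝ} (w0 : ∀ e n, 0 ≤ w e n) (hw : ∀ e, LogC (w e))
    (h00 : ∀ e, 0 < w e 0) (hs : ∀ e, Summable fun n => |w e n|) (hj : Joined s t om op ∅)
    {ι : Type} (S : Finset ι) (B : ι → Finset V) :
    ∏ i ∈ S, (ZM s t w om op (B i) / ZS s t w om op ∅ 0) ≤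
      ZM s t w om op (S.biUnion B) / ZS s t w om op ∅ 0 := by
  have hsum := summable_pin (s := s) (t := t) hs w0 hj
  have hZ : 0 < ∑' h : pin ({om, op} : Set V) (0 : V → ℤ), Wk s t w h := by
    rw [← ZS_eq_SP]
    exact ZS_zero_pos w0 h00 hs hj
  have h := fkg_prod w0 hw hsum hZ S (fun i => mI s t om op (B i)) (fun i => mI_mono (B i))
    (fun i h => mI_nonneg (B i) h) (fun i h => mI_le_one (B i) h)
  simp only [mI_biUnion] at h
  rw [ZS_eq_SP]
  simp only [ZM_eq_SP]
  exact h

end miss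

end Vale.Agent.P159.T1.H857
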