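import Vale.Agent.P159.T1.H857.CorrDual

/-!
Ginibre inequality for the identification of spins: `corr J x y ≤ corr (pushJ c J) (c x) (c y)` for
every map `c` of the sites.
-/

open MeasureTheory Filter Topology

namespace Vale.Agent.P159.T1.H857

open Vale.Agent.P159 Vale.Agent.P159.XY

/-- Laplace principle -/
lemma laplace {X : Type*} [TopologicalSpace X] [CompactSpace X] [MeasurableSpace X]
    [BorelSpace X] (μ : Measure X) [IsProbabilityMeasure μ] [μ.IsOpenPosMeasure] {D F : X → ℝ}
    (hD : Continuous D) (hF : Continuous F) {M : ℝ} (hM : ∀ x, F x ≤ M) (x0 : X)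
    (h0 : F x0 = M) (hneg : ∀ x, F x = M → D x = D x0)
    (h : ∀ K : ℝ, 0 ≤ K → 0 ≤ ∫ x, D x * Real.exp (K * F x) ∂μ) : 0 ≤ D x0 := by
  by_contra hc
  push Not at hc
  obtain ⟨a, ha⟩ : ∃ a, a = -D x0 := ⟨_, rfl⟩
  have ha0 : 0 < a := by linarith
  -- a gap on the set where `D` is not very negative
  obtain ⟨η, hη, hgap⟩ : ∃ η > 0, ∀ x, -(a / 2) ≤ D x → F x ≤ M - 2 * η := by
    by_cases hne : ∃ x, -(a / 2) ≤ D x
    · have hcl : IsClosed {x | -(a / 2) ≤ D x} := isClosed_le continuous_const hD
      obtain ⟨x1, hx1, hmax⟩ := hcl.isCompact.exists_isMaxOn hne hF.continuousOn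
      have h1 : F x1 < M := by
        refine lt_of_le_of_ne (hM x1) fun h2 => ?_
        have h3 := hneg x1 h2
        have h4 : -(a / 2) ≤ D x1 := hx1
        rw [h3] at h4
        linarith
      refine ⟨(M - F x1) / 2, by linarith, fun x hx => ?_⟩
      have h5 : F x ≤ F x1 := hmax hx
      linarith
    · push Not at hne
      exact ⟨1, one_pos, fun x hx => absurd hx (not_le.2 (hne x))⟩
  obtain ⟨B, hB0, hB⟩ := exists_bound hD
  set U : Set X := {x | M - η < F x} with hU
  have hUo : IsOpen U := isOpen_lt continuous_const hF
  have hUne : U.Nonempty := ⟨x0, by rw [hU]; show M - η < F x0; rw [h0]; linarith⟩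
  have hUpos : 0 < μ.real U := by
    have h1 := hUo.measure_pos μ hUne
    exact ENNReal.toReal_pos h1.ne' (measure_ne_top μ U)
  set K : ℝ := 2 * B / (a * μ.real U * η) with hK
  have hK0 : 0 ≤ K := by positivity
  -- the pointwise bound
  have hpt : ∀ x, D x * Real.exp (K * (F x - M)) ≤
      B * Real.exp (-(2 * K * η)) - a / 2 * Real.exp (-(K * η)) * U.indicator (fun _ => 1) x := by
    intro x
    by_cases hx : -(a / 2) ≤ D x
    · have h1 := hgap x hx
      have h2 : x ∉ U := fun h3 => by
        have h4 : M - η < F x := h3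
        linarith
      rw [Set.indicator_of_notMem h2, mul_zero, sub_zero]
      have h3 : D x ≤ B := (le_abs_self _).trans (hB x)
      have h4 : Real.exp (K * (F x - M)) ≤ Real.exp (-(2 * K * η)) := by
        apply Real.exp_le_exp.2
        nlinarith
      calc D x * Real.exp (K * (F x - M)) ≤ B * Real.exp (K * (F x - M)) :=
            mul_le_mul_of_nonneg_right h3 (Real.exp_pos _).le
        _ ≤ _ := mul_le_mul_of_nonneg_left h4 hB0
    · push Not at hx
      have h5 : 0 ≤ B * Real.exp (-(2 * K * η)) := by positivity
      by_cases h2 : x ∈ U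
      · rw [Set.indicator_of_mem h2, mul_one]
        have h4 : Real.exp (-(K * η)) ≤ Real.exp (K * (F x - M)) := by
          apply Real.exp_le_exp.2
          have h6 : M - η < F x := h2
          nlinarith
        have h7 : D x * Real.exp (K * (F x - M)) ≤ -(a / 2) * Real.exp (K * (F x - M)) :=
          mul_le_mul_of_nonneg_right hx.le (Real.exp_pos _).le
        have h8 : -(a / 2) * Real.exp (K * (F x - M)) ≤ -(a / 2) * Real.exp (-(K * η)) := by
          nlinarith
        linarith
      · rw [Set.indicator_of_notMem h2, mul_zero, sub_zero]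
        have h7 : D x * Real.exp (K * (F x - M)) ≤ 0 :=
          mul_nonpos_of_nonpos_of_nonneg (by linarith) (Real.exp_pos _).le
        linarith
  have hint1 : Integrable (fun x => D x * Real.exp (K * (F x - M))) μ :=
    integrable_of_continuous (by fun_prop)
  have hint2 : Integrable (fun x => B * Real.exp (-(2 * K * η)) -
      a / 2 * Real.exp (-(K * η)) * U.indicator (fun _ => (1 : ℝ)) x) μ := by
    refine (integrable_const _).sub (Integrable.const_mul ?_ _)
    exact (integrable_const (1 : ℝ)).indicator hUo.measurableSet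
  have h1 := integral_mono hint1 hint2 hpt
  have h2 : ∫ x, (B * Real.exp (-(2 * K * η)) -
      a / 2 * Real.exp (-(K * η)) * U.indicator (fun _ => (1 : ℝ)) x) ∂μ =
      B * Real.exp (-(2 * K * η)) - a / 2 * Real.exp (-(K * η)) * μ.real U := by
    rw [integral_sub (integrable_const _) (Integrable.const_mul
      ((integrable_const (1 : ℝ)).indicator hUo.measurableSet) _), integral_const,
      integral_const_mul, integral_indicator hUo.measurableSet, setIntegral_const]
    simp
  have h3 : ∫ x, D x * Real.exp (K * (F x - M)) ∂μ =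
      (∫ x, D x * Real.exp (K * F x) ∂μ) * Real.exp (-(K * M)) := by
    rw [← integral_mul_const]
    refine integral_congr_ae (Eventually.of_forall fun x => ?_)
    show D x * Real.exp (K * (F x - M)) = D x * Real.exp (K * F x) * Real.exp (-(K * M))
    rw [mul_assoc, ← Real.exp_add]
    congr 2
    ring
  rw [h2, h3] at h1
  have h4 : 0 ≤ (∫ x, D x * Real.exp (K * F x) ∂μ) * Real.exp (-(K * M)) :=
    mul_nonneg (h K hK0) (Real.exp_pos _).le
  have h5 : Real.exp (-(2 * K * η)) = Real.exp (-(K * η)) * Real.exp (-(K * η)) := by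
    rw [← Real.exp_add]
    congr 1
    ring
  rw [h5] at h1
  have h6 : 0 < Real.exp (-(K * η)) := Real.exp_pos _
  have h7 : B * Real.exp (-(K * η)) < a / 2 * μ.real U := by
    rw [Real.exp_neg, ← div_eq_mul_inv, div_lt_iff₀ (Real.exp_pos _)]
    have h8 : K * η + 1 ≤ Real.exp (K * η) := Real.add_one_le_exp _
    have h9 : K * η = 2 * B / (a * μ.real U) := by
      rw [hK]
      field_simp
    have h10 : a / 2 * μ.real U * (K * η) = B := by
      rw [h9]
      field_simp
    have h11 : 0 < a / 2 * μ.real U := by positivity
    nlinarith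
  nlinarith

section push

variable {V W : Type*} [Fintype V] [Fintype W] [DecidableEq W]

lemma eq_zero_of_ct {t : T} (h : ct t = 1) : t = 0 := by
  have h1 : Real.Angle.cos t = Real.Angle.cos 0 := by
    rw [Real.Angle.cos_zero]
    exact h
  rcases Real.Angle.cos_eq_iff_eq_or_eq_neg.1 h1 with h2 | h2
  · exact h2
  · rw [neg_zero] at h2
    exact h2

/-- **Ginibre inequality for the identification of spins** -/
theorem corr_le_push (c : V → W) {J : V → V → ℝ} (hJ : ∀ u v, 0 ≤ J u v) (x y : V) :
    XY.corr J x y ≤ XY.corr (pushJ c J) (c x) (c y) := by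
  classical
  have : Nonempty V := ⟨x⟩
  set r : V → V := fun v => Function.invFun c (c v) with hr
  have hcr : ∀ v, c (r v) = c v := fun v => Function.invFun_eq ⟨v, rfl⟩
  set ρ := XY.corr J x y with hρ
  set G : (V → T) → ℝ := fun θ => (ct (θ x - θ y) - ρ) * Real.exp (energy J θ) with hG
  have hGc : Continuous G := by
    have := continuous_energy J
    rw [hG]
    fun_prop
  set F : (V → T) → ℝ := fun θ => ∑ u, ct (θ u - θ (r u)) with hF
  have hFc : Continuous F := by
    rw [hF]
    fun_prop
  set Φ : (V → T) → ℝ := fun ψ => ∫ φ : W → T, G (fun v => φ (c v) + ψ v) ∂haarV W with hΦ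
  have hΦc : Continuous Φ := by
    have h1 : Continuous (Function.uncurry fun (ψ : V → T) (φ : W → T) =>
        G (fun v => φ (c v) + ψ v)) := by
      have h2 : Continuous fun z : (V → T) × (W → T) => (fun v => z.2 (c v) + z.1 v) := by
        fun_prop
      exact hGc.comp h2
    have h2 := continuous_parametric_integral_of_continuous (μ := haarV W) h1
      (isCompact_univ (X := W → T))
    simp only [Measure.restrict_univ] at h2
    exact h2
  -- the integral over all spins
  have hfub : ∀ K : ℝ, ∫ ψ, Φ ψ * Real.exp (K * F ψ) ∂haarV V =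
      ∫ θ, G θ * Real.exp (K * F θ) ∂haarV V := by
    intro K
    have h1 : ∀ ψ, Φ ψ * Real.exp (K * F ψ) = ∫ φ : W → T,
        G (fun v => φ (c v) + ψ v) * Real.exp (K * F (fun v => φ (c v) + ψ v)) ∂haarV W := by
      intro ψ
      rw [hΦ]
      simp only
      rw [← integral_mul_const]
      refine integral_congr_ae (Eventually.of_forall fun φ => ?_)
      simp only
      congr 3
      rw [hF]
      simp only
      refine Finset.sum_congr rfl fun u _ => ?_
      rw [hcr]
      congr 1
      abel
    simp only [h1]
    have hjc : Continuous (fun z : (V → T) × (W → T) => G (fun v => z.2 (c v) + z.1 v) *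
        Real.exp (K * F (fun v => z.2 (c v) + z.1 v))) := by
      have h2 : Continuous fun z : (V → T) × (W → T) => (fun v => z.2 (c v) + z.1 v) := by
        fun_prop
      exact (hGc.comp h2).mul (Real.continuous_exp.comp (continuous_const.mul (hFc.comp h2)))
    rw [integral_integral_swap (f := fun (ψ : V → T) (φ : W → T) =>
      G (fun v => φ (c v) + ψ v) * Real.exp (K * F (fun v => φ (c v) + ψ v)))
      (integrable_of_continuous hjc)]
    have h3 : ∀ φ : W → T, ∫ ψ : V → T, G (fun v => φ (c v) + ψ v) *
        Real.exp (K * F (fun v => φ (c v) + ψ v)) ∂haarV V =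
        ∫ θ, G θ * Real.exp (K * F θ) ∂haarV V := fun φ =>
      integral_add_left_eq_self (μ := haarV V) (fun θ => G θ * Real.exp (K * F θ))
        (fun v => φ (c v))
    simp only [h3]
    simp
  -- positivity for all `K`
  set A : V → V → ℝ := fun u v => if r u = v then 1 else 0 with hA
  have henA : ∀ θ, energy A θ = F θ := by
    intro θ
    unfold energy
    rw [hF]
    simp only
    refine Finset.sum_congr rfl fun u _ => ?_
    rw [Finset.sum_eq_single (r u)]
    · rw [hA]
      simp
    · intro v _ hv
      rw [hA]
      simp [hv.symm]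
    · intro h
      exact absurd (Finset.mem_univ _) h
  have hpos : ∀ K : ℝ, 0 ≤ K → 0 ≤ ∫ ψ, Φ ψ * Real.exp (K * F ψ) ∂haarV V := by
    intro K hK
    rw [hfub]
    have h1 := corr_mono (J := J) (J' := fun u v => J u v + K * A u v) hJ (fun u v => by
      have : 0 ≤ A u v := by
        rw [hA]
        simp only
        split_ifs <;> norm_num
      nlinarith) x y
    rw [← hρ] at h1
    unfold XY.corr ev at h1
    rw [le_div_iff₀ (part_pos _)] at h1
    have h2 : ∫ θ, G θ * Real.exp (K * F θ) ∂haarV V =
        un (fun u v => J u v + K * A u v) (fun θ => ct (θ x - θ y)) -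
          ρ * part (fun u v => J u v + K * A u v) := by
      unfold un part
      rw [← integral_const_mul, ← integral_sub]
      · refine integral_congr_ae (Eventually.of_forall fun θ => ?_)
        simp only
        rw [energy_add_smul, henA, Real.exp_add, hG]
        simp only
        ring
      · have := continuous_energy (fun u v => J u v + K * A u v)
        exact integrable_of_continuous (by fun_prop)
      · have := continuous_energy (fun u v => J u v + K * A u v)
        exact integrable_of_continuous (by fun_prop)
    rw [h2]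
    linarith
  have hM : ∀ ψ, F ψ ≤ Fintype.card V := by
    intro ψ
    calc F ψ ≤ ∑ _u : V, (1 : ℝ) := Finset.sum_le_sum fun u _ => ct_le_one _
      _ = _ := by simp
  have h00 : F 0 = Fintype.card V := by
    rw [hF]
    simp [ct_zero]
  have hconst : ∀ ψ, F ψ = Fintype.card V → Φ ψ = Φ 0 := by
    intro ψ hψ
    have h1 : ∀ u, ct (ψ u - ψ (r u)) = 1 := by
      by_contra hne
      push Not at hne
      obtain ⟨u, hu⟩ := hne
      have h2 : F ψ < ∑ _u : V, (1 : ℝ) :=
        Finset.sum_lt_sum (fun u _ => ct_le_one _) ⟨u, Finset.mem_univ _,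
          lt_of_le_of_ne (ct_le_one _) hu⟩
      rw [hψ] at h2
      simp at h2
    have h2 : ψ = fun u => (fun w => ψ (Function.invFun c w)) (c u) := by
      funext u
      exact sub_eq_zero.1 (eq_zero_of_ct (h1 u))
    rw [hΦ]
    simp only
    have h3 := integral_add_right_eq_self (μ := haarV W)
      (fun φ : W → T => G (fun v => φ (c v) + (0 : V → T) v)) (fun w => ψ (Function.invFun c w))
    rw [← h3]
    refine integral_congr_ae (Eventually.of_forall fun φ => ?_)
    simp only
    congr 1
    funext v
    rw [Pi.add_apply, Pi.zero_apply, add_zero]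
    congr 1
    exact congrFun h2 v
  have hfin := laplace (haarV V) hΦc hFc hM 0 h00 hconst hpos
  have h4 : Φ 0 = un (pushJ c J) (fun θ => ct (θ (c x) - θ (c y))) - ρ * part (pushJ c J) := by
    unfold un part
    rw [← integral_const_mul, ← integral_sub]
    · refine integral_congr_ae (Eventually.of_forall fun φ => ?_)
      simp only
      rw [energy_pushJ, hG]
      simp only [Pi.zero_apply, add_zero]
      ring
    · have := continuous_energy (pushJ c J)
      exact integrable_of_continuous (by fun_prop)
    · have := continuous_energy (pushJ c J)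
      exact integrable_of_continuous (by fun_prop)
  rw [h4] at hfin
  show ρ ≤ un (pushJ c J) (fun θ => ct (θ (c x) - θ (c y))) / part (pushJ c J)
  rw [le_div_iff₀ (part_pos _)]
  linarith

end push

end Vale.Agent.P159.T1.H857
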