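import Vale.Agent.P159.T1.H857.UWE
import Vale.Agent.P159.T1.H857.Contract
import Vale.Agent.P159.T1.H565.Lim2
import Vale.Agent.P159.T1.H568.Cheb

/-!
The product form of the unwiring inequality without hypotheses.
-/

open Filter Topology

namespace Vale.Agent.P159.T1.H857

open Vale.Agent.P159.H353 Vale.Agent.P159.T1.H254 Vale.Agent.P159.T1.H565

theorem stmtCheb : H565.StmtCheb := by
  intro V E _ _ _ _ s t β om op B g T v lam hβ hj hg hl hF
  have h := H568.cheb V E s t β om op B g T v lam hβ hj hg hl hF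
  rw [ZS_ZW] at h
  exact h

theorem stmtLimW : StmtLimW := by
  intro V E _ _ _ _ s t J om op hJ hj
  exact ⟨fun S hS k => lim_ZS hJ hS k, fun Q hQ => lim_ZW hJ hj 0 Q hQ⟩

/-- **the product form of the unwiring inequality** -/
theorem uwE : StmtUWE := uwE_of stmtCheb stmtLimW

/-- **the unwiring inequality for spins**: contracting the spins around the blocks `B i` increases
the correlation of `x` and `y` at most by the factor `∏ (P (T i ≤ g i · h) - exp ...)⁻¹` -/
theorem unwire {A E V A' : Type} [Fintype A] [DecidableEq A] [Fintype E] [DecidableEq E]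
    [Fintype V] [DecidableEq V] [Fintype A'] [DecidableEq A'] {p q : E → A} {s t : E → V}
    {om op : V} {x y : A} (hd : IsDual p q s t om op x y) {J : E → ℝ} (hJ : ∀ e, 0 < J e)
    {ι : Type} [DecidableEq ι] (S : Finset ι) (B : ι → Finset V) (g : ι → V → ℝ)
    (T v lam : ι → ℝ) (hj0 : Joined s t om op ∅) (hjB : Joined s t om op (S.biUnion B))
    (hg : ∀ i ∈ S, ∀ x, 0 ≤ g i x) (hl : ∀ i ∈ S, 0 ≤ lam i)
    (hF : ∀ i ∈ S, FlowL s t om op (B i) (g i) J (v i) (lam i))
    (c : A → A') (hc1 : ∀ e, Tch s t (S.biUnion B) e → c (p e) = c (q e))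
    (hc2 : ∀ u v, c u = c v →
      Relation.ReflTransGen (adjF p q (Tch s t (S.biUnion B))) u v) :
    (∏ i ∈ S, max 0 (ZW s t (fun e => wI (J e)) (QT om op (g i) (T i)) /
        ZS s t (fun e => wI (J e)) om op ∅ 0 -
          Real.exp (lam i ^ 2 * v i - lam i * (T i - ∑ x, g i x)))) *
      XY.corr (matJ (fun e : {e // ¬ Tch s t (S.biUnion B) e} => c (p e.1))
        (fun e => c (q e.1)) (fun e => J e.1)) (c x) (c y) ≤ XY.corr (matJ p q J) x y := by
  have h := uwE V E s t J om op ι S B g T v lam hJ hj0 hjB hg hl hF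
  obtain ⟨a1, a2, a3⟩ := corr_ZS hd hj0 fun e => (hJ e).le
  obtain ⟨b1, b2, b3⟩ := corr_contract hd hjB (fun e => (hJ e).le) c hc1 hc2
  rw [a3, b3]
  set P := ∏ i ∈ S, max 0 (ZW s t (fun e => wI (J e)) (QT om op (g i) (T i)) /
        ZS s t (fun e => wI (J e)) om op ∅ 0 -
          Real.exp (lam i ^ 2 * v i - lam i * (T i - ∑ x, g i x))) with hP
  rw [mul_div_assoc', div_le_div_iff₀ b1 a1]
  calc P * ZS s t (fun e => wI (J e)) om op (S.biUnion B) 1 *
        ZS s t (fun e => wI (J e)) om op ∅ 0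
      = P * (ZS s t (fun e => wI (J e)) om op ∅ 0 *
        ZS s t (fun e => wI (J e)) om op (S.biUnion B) 1) := by ring
    _ ≤ _ := h

end Vale.Agent.P159.T1.H857
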