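import Vale.Agent.P159.T1.H857.Glue
import Vale.Agent.P159.T1.H857.UWF

/-!
The unwiring inequality and the duality with contracted spins in terms of `XY.pushJ`.
-/

open MeasureTheory Filter Topology

namespace Vale.Agent.P159.T1.H857

open Vale.Agent.P159 Vale.Agent.P159.XY Vale.Agent.P159.H353 Vale.Agent.P159.T1.H254
  Vale.Agent.P159.T1.H565

section off

variable {V : Type*} [Fintype V]

/-- the correlations do not depend on the diagonal couplings -/
theorem corr_congr_off {J J' : V → V → ℝ} (h : ∀ u v, u ≠ v → J u v = J' u v) (x y : V) :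
    XY.corr J x y = XY.corr J' x y := by
  classical
  obtain ⟨D, hD⟩ : ∃ D : ℝ, D = ∑ u, (J u u - J' u u) := ⟨_, rfl⟩
  have he : ∀ θ : V → T, energy J θ = energy J' θ + D := by
    intro θ
    unfold energy
    rw [hD, ← Finset.sum_add_distrib]
    refine Finset.sum_congr rfl fun u _ => ?_
    have h1 : ∀ v, J u v * ct (θ u - θ v) = J' u v * ct (θ u - θ v) +
        if v = u then J u u - J' u u else 0 := by
      intro v
      by_cases hv : v = u
      · subst hv
        rw [if_pos rfl, sub_self, ct_zero]
        ring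
      · rw [if_neg hv, h u v (Ne.symm hv), add_zero]
    rw [Finset.sum_congr rfl fun v _ => h1 v, Finset.sum_add_distrib,
      Finset.sum_ite_eq' Finset.univ u, if_pos (Finset.mem_univ _)]
  have hu : ∀ f : (V → T) → ℝ, un J f = Real.exp D * un J' f := by
    intro f
    unfold un
    rw [← integral_const_mul]
    refine integral_congr_ae (Eventually.of_forall fun θ => ?_)
    show f θ * Real.exp (energy J θ) = Real.exp D * (f θ * Real.exp (energy J' θ))
    rw [he, Real.exp_add]
    ring
  unfold XY.corr ev
  rw [part_eq_un, part_eq_un, hu, hu, mul_div_mul_left _ _ (Real.exp_pos _).ne']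

end off

section push

variable {A E V A' : Type} [Fintype A] [DecidableEq A] [Fintype E] [DecidableEq E]
    [Fintype V] [DecidableEq V] [Fintype A'] [DecidableEq A'] {p q : E → A} {s t : E → V}
    {om op : V} {x y : A}

omit [DecidableEq E] [Fintype A'] in
lemma pushJ_matJ (p q : E → A) (J : E → ℝ) (c : A → A') :
    pushJ c (matJ p q J) = matJ (fun e => c (p e)) (fun e => c (q e)) J := by
  funext a b
  unfold pushJ matJ
  have h1 : ∀ u v : A, (if c u = a ∧ c v = b then ∑ e, (if p e = u ∧ q e = v then J e else 0)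
      else 0) = ∑ e, (if p e = u then (if q e = v then (if c u = a ∧ c v = b then J e else 0)
        else 0) else 0) := by
    intro u v
    by_cases h : c u = a ∧ c v = b
    · simp only [h, and_self, if_true]
      refine Finset.sum_congr rfl fun e _ => ?_
      by_cases h2 : p e = u <;> by_cases h3 : q e = v <;> simp [h2, h3]
    · simp only [h, if_false]
      symm
      refine Finset.sum_eq_zero fun e _ => ?_
      split_ifs <;> rfl
  simp_rw [h1]
  have h2 : ∀ u : A, ∑ v, ∑ e, (if p e = u then (if q e = v then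
      (if c u = a ∧ c v = b then J e else 0) else 0) else 0) = ∑ e, ∑ v, (if p e = u then
      (if q e = v then (if c u = a ∧ c v = b then J e else 0) else 0) else 0) := fun u =>
    Finset.sum_comm
  simp_rw [h2]
  rw [Finset.sum_comm]
  refine Finset.sum_congr rfl fun e _ => ?_
  rw [Finset.sum_eq_single (p e)]
  · rw [Finset.sum_eq_single (q e)]
    · simp
    · intro v _ hv
      simp [hv.symm]
    · intro h
      exact absurd (Finset.mem_univ _) h
  · intro u _ hu
    simp [hu.symm]
  · intro h
    exact absurd (Finset.mem_univ _) h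

omit [DecidableEq E] [Fintype V] in
lemma corr_push_eq {S : Finset V} {J : E → ℝ} (c : A → A')
    (hF : ∀ e, Tch s t S e → c (p e) = c (q e)) :
    XY.corr (pushJ c (matJ p q J)) (c x) (c y) =
    XY.corr (matJ (fun e : {e // ¬ Tch s t S e} => c (p e.1)) (fun e => c (q e.1))
      (fun e => J e.1)) (c x) (c y) := by
  rw [pushJ_matJ]
  refine corr_congr_off (fun u v huv => ?_) _ _
  unfold matJ
  refine Eq.trans ?_ (Finset.sum_subtype (Finset.univ.filter fun e => ¬ Tch s t S e)
      (by simp) (fun e => if c (p e) = u ∧ c (q e) = v then J e else 0))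
  rw [Finset.sum_filter]
  refine Finset.sum_congr rfl fun e _ => ?_
  by_cases he : Tch s t S e
  · rw [if_neg (not_not.2 he), if_neg]
    rintro ⟨h1, h2⟩
    exact huv (h1.symm.trans ((hF e he).trans h2))
  · rw [if_pos he]

omit [Fintype V] in
/-- duality with contraction -/
theorem corr_contract' (hd : IsDual p q s t om op x y) {S : Finset V}
    (hj : Joined s t om op S) {J : E → ℝ} (hJ : ∀ e, 0 ≤ J e) (c : A → A')
    (hF : ∀ e, Tch s t S e → c (p e) = c (q e))
    (hc : ∀ u v, c u = c v → Relation.ReflTransGen (adjF p q (Tch s t S)) u v) :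
    0 < ZS s t (fun e => wI (J e)) om op S 0 ∧ 0 ≤ ZS s t (fun e => wI (J e)) om op S 1 ∧
    XY.corr (pushJ c (matJ p q J)) (c x) (c y) =
      ZS s t (fun e => wI (J e)) om op S 1 / ZS s t (fun e => wI (J e)) om op S 0 := by
  rw [corr_push_eq c hF]
  exact corr_contract hd hj hJ c hF hc

/-- **the unwiring inequality for spins** -/
theorem unwire' (hd : IsDual p q s t om op x y) {J : E → ℝ} (hJ : ∀ e, 0 < J e)
    {ι : Type} [DecidableEq ι] (S : Finset ι) (B : ι → Finset V) (g : ι → V → ℝ)
    (T v lam : ι → ℝ) (hj0 : Joined s t om op ∅) (hjB : Joined s t om op (S.biUnion B))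
    (hg : ∀ i ∈ S, ∀ x, 0 ≤ g i x) (hl : ∀ i ∈ S, 0 ≤ lam i)
    (hF : ∀ i ∈ S, FlowL s t om op (B i) (g i) J (v i) (lam i))
    (c : A → A') (hc1 : ∀ e, Tch s t (S.biUnion B) e → c (p e) = c (q e))
    (hc2 : ∀ u v, c u = c v →
      Relation.ReflTransGen (adjF p q (Tch s t (S.biUnion B))) u v) :
    (∏ i ∈ S, max 0 (ZW s t (fun e => wI (J e)) (QT om op (g i) (T i)) /
        ZS s t (fun e => wI (J e)) om op ∅ 0 -
          Real.exp (lam i ^ 2 * v i - lam i * (T i - ∑ x, g i x)))) *
      XY.corr (pushJ c (matJ p q J)) (c x) (c y) ≤ XY.corr (matJ p q J) x y := by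
  rw [corr_push_eq c hc1]
  exact unwire hd hJ S B g T v lam hj0 hjB hg hl hF c hc1 hc2

end push

end Vale.Agent.P159.T1.H857
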