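import Vale.Agent.P159.T1.H857.Contract
import Vale.Agent.P159.T1.D.Defs

/-!
Exactness for planar domains in `ℤ²`. Sites are points of `ℤ²`, faces are unit squares named by
their lower left corners, `U` is a finite set of faces, the bonds of the domain are the bonds next
to a face of `U`. The outer face (all squares off `U`) is cut in two by the sites `(0, 0)` and
`(r, 0)`: `om` above, `op` below. If the squares off `U` are connected and the squares of `U` in
the row `-1` are `(0, -1), …, (r - 1, -1)`, then the heights on `U`, `om`, `op` are dual to the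
spins with charges at `(0, 0)` and `(r, 0)` (`isDual_Z`).
-/

open MeasureTheory Filter Topology

namespace Vale.Agent.P159.T1.H857

open Vale.Agent.P159 Vale.Agent.P159.R2.H254 Vale.Agent.P159.T1.H254 Vale.Agent.P159.T1.D
open Vale.Agent.P159.H353 (wI wI_nonneg)

/-- divergence at a site -/
def dz (n : Bnd → ℤ) (v : ℤ × ℤ) : ℤ :=
  n (v, false) + n (v, true) - n ((v.1 - 1, v.2), false) - n ((v.1, v.2 - 1), true)

lemma dz_dh (H : ℤ × ℤ → ℤ) (v : ℤ × ℤ) : dz (dh H) v = 0 := by
  obtain ⟨a, b⟩ := v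
  unfold dz dh lf rt
  simp only [if_true, Bool.false_eq_true, if_false]
  ring

/-- a current without divergence which vanishes far to the left is a gradient -/
theorem exact_z {n : Bnd → ℤ} (M : ℤ) (h0 : ∀ e : Bnd, e.1.1 < M → n e = 0)
    (hd : ∀ v, dz n v = 0) : ∃ H : ℤ × ℤ → ℤ, (∀ f, f.1 < M → H f = 0) ∧ ∀ e, dh H e = n e := by
  set H : ℤ × ℤ → ℤ := fun f =>
    -∑ k ∈ Finset.range (f.1 + 1 - M).toNat, n ((M + k, f.2), true) with hH
  have hz : ∀ f : ℤ × ℤ, f.1 < M → H f = 0 := by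
    intro f hf
    have : (f.1 + 1 - M).toNat = 0 := by omega
    rw [hH]
    simp only
    rw [this, Finset.range_zero, Finset.sum_empty, neg_zero]
  have hstep : ∀ i j : ℤ, H (i, j) = H (i - 1, j) - n ((i, j), true) := by
    intro i j
    by_cases hi : i < M
    · rw [hz _ hi, hz _ (show i - 1 < M by omega), h0 _ hi, sub_zero]
    · rw [hH]
      simp only
      have h1 : (i + 1 - M).toNat = (i - 1 + 1 - M).toNat + 1 := by omega
      rw [h1, Finset.sum_range_succ]
      have h2 : M + (((i - 1 + 1 - M).toNat : ℕ) : ℤ) = i := by omega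
      rw [h2]
      ring
  have hrow : ∀ (k : ℕ) (j : ℤ), H (M - 1 + k, j) - H (M - 1 + k, j - 1) =
      n ((M - 1 + k, j), false) := by
    intro k
    induction k with
    | zero =>
      intro j
      rw [hz _ (by simp), hz _ (by simp), h0 _ (by simp)]
      ring
    | succ k ih =>
      intro j
      have e1 := hstep (M - 1 + (k + 1 : ℕ)) j
      have e2 := hstep (M - 1 + (k + 1 : ℕ)) (j - 1)
      have e3 : M - 1 + ((k + 1 : ℕ) : ℤ) - 1 = M - 1 + k := by push_cast; ring
      have e4 := hd (M - 1 + (k + 1 : ℕ), j)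
      unfold dz at e4
      simp only at e4
      rw [e3] at e1 e2 e4
      have e5 := ih j
      linarith
  refine ⟨H, hz, fun e => ?_⟩
  obtain ⟨⟨i, j⟩, d⟩ := e
  cases d with
  | true =>
    unfold dh lf rt
    simp only [if_true]
    have := hstep i j
    linarith
  | false =>
    unfold dh lf rt
    simp only [Bool.false_eq_true, if_false]
    by_cases hi : i < M
    · rw [hz _ hi, hz _ hi, h0 _ hi, sub_zero]
    · have h1 := hrow (i - (M - 1)).toNat j
      have h2 : M - 1 + (((i - (M - 1)).toNat : ℕ) : ℤ) = i := by omega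
      rw [h2] at h1
      exact h1

section dom

lemma mem_bd {U : Finset (ℤ × ℤ)} {e : Bnd} : e ∈ bd U ↔ lf e ∈ U ∨ rt e ∈ U := by
  obtain ⟨⟨i, j⟩, d⟩ := e
  unfold bd sides lf rt
  simp only [Finset.mem_biUnion, Finset.mem_insert, Finset.mem_singleton, Prod.mk.injEq,
    Prod.exists]
  cases d with
  | true =>
    simp only [Bool.true_eq_false, and_false, false_or, and_true, if_true]
    constructor
    · rintro ⟨a, b, h, ⟨rfl, rfl⟩ | ⟨h1, rfl⟩⟩
      · exact Or.inr h
      · left
        have : i - 1 = a := by omega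
        rwa [this]
    · rintro (h | h)
      · exact ⟨i - 1, j, h, Or.inr ⟨by omega, rfl⟩⟩
      · exact ⟨i, j, h, Or.inl ⟨rfl, rfl⟩⟩
  | false =>
    simp only [Bool.false_eq_true, and_false, or_false, and_true, if_false]
    constructor
    · rintro ⟨a, b, h, ⟨rfl, rfl⟩ | ⟨rfl, h1⟩⟩
      · exact Or.inl h
      · right
        have : j - 1 = b := by omega
        rwa [this]
    · rintro (h | h)
      · exact ⟨i, j, h, Or.inl ⟨rfl, rfl⟩⟩
      · exact ⟨i, j - 1, h, Or.inr ⟨rfl, by omega⟩⟩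

/-- the bonds of the domain -/
abbrev DE (U : Finset (ℤ × ℤ)) : Type := {e : Bnd // e ∈ bd U}

/-- the sites of the domain -/
def AU (U : Finset (ℤ × ℤ)) : Finset (ℤ × ℤ) := (bd U).image bs ∪ (bd U).image bt

/-- the spins of the domain -/
abbrev DA (U : Finset (ℤ × ℤ)) : Type := {v : ℤ × ℤ // v ∈ AU U}

/-- the height vertices: the faces of `U`, `om = inr false` and `op = inr true` -/
abbrev DV (U : Finset (ℤ × ℤ)) : Type := {f : ℤ × ℤ // f ∈ U} ⊕ Bool

lemma bs_mem {U : Finset (ℤ × ℤ)} (e : DE U) : bs e.1 ∈ AU U :=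
  Finset.mem_union_left _ (Finset.mem_image_of_mem _ e.2)

lemma bt_mem {U : Finset (ℤ × ℤ)} (e : DE U) : bt e.1 ∈ AU U :=
  Finset.mem_union_right _ (Finset.mem_image_of_mem _ e.2)

/-- first spin of a bond -/
def pD {U : Finset (ℤ × ℤ)} (e : DE U) : DA U := ⟨bs e.1, bs_mem e⟩

/-- second spin of a bond -/
def qD {U : Finset (ℤ × ℤ)} (e : DE U) : DA U := ⟨bt e.1, bt_mem e⟩

/-- the height vertex of a face, seen from the side `sd` of the outer face -/
def fV (U : Finset (ℤ × ℤ)) (sd : Bool) (f : ℤ × ℤ) : DV U :=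
  if h : f ∈ U then Sum.inl ⟨f, h⟩ else Sum.inr sd

/-- the side of the outer face seen from a bond: `true` (`op`) below the row `0` of sites -/
def sdz (e : Bnd) : Bool := decide ((bs e).2 < 0)

/-- the height vertex to the right of a bond -/
def sD {U : Finset (ℤ × ℤ)} (e : DE U) : DV U := fV U (sdz e.1) (rt e.1)

/-- the height vertex to the left of a bond -/
def tD {U : Finset (ℤ × ℤ)} (e : DE U) : DV U := fV U (sdz e.1) (lf e.1)

/-- the lower lip has height `0` -/
abbrev omD (U : Finset (ℤ × ℤ)) : DV U := Sum.inr false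

/-- the other lip -/
abbrev opD (U : Finset (ℤ × ℤ)) : DV U := Sum.inr true

lemma fV_mem {U : Finset (ℤ × ℤ)} {sd : Bool} {f : ℤ × ℤ} (h : f ∈ U) :
    fV U sd f = Sum.inl ⟨f, h⟩ := by
  unfold fV
  rw [dif_pos h]

lemma fV_not {U : Finset (ℤ × ℤ)} {sd : Bool} {f : ℤ × ℤ} (h : f ∉ U) :
    fV U sd f = Sum.inr sd := by
  unfold fV
  rw [dif_neg h]

/-- squares off `U` which share a bond -/
def adjO (U : Finset (ℤ × ℤ)) (f g : ℤ × ℤ) : Prop :=
  f ∉ U ∧ g ∉ U ∧ ∃ e : Bnd, (lf e = f ∧ rt e = g) ∨ (lf e = g ∧ rt e = f)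

/-- the hypotheses on the domain -/
structure IsSlit (U : Finset (ℤ × ℤ)) (r : ℕ) : Prop where
  r_pos : 0 < r
  row : ∀ i : ℤ, (i, -1) ∈ U ↔ 0 ≤ i ∧ i < r
  conn : ∀ M : ℤ, ∀ f, f ∉ U → ∃ g : ℤ × ℤ, g.1 < M ∧ Relation.ReflTransGen (adjO U) f g

/-- the reference current -/
def nz (U : Finset (ℤ × ℤ)) (e : Bnd) : ℤ :=
  if (bs e).2 < 0 then 0 else (if lf e ∈ U then 0 else 1) - (if rt e ∈ U then 0 else 1)

lemma dz_nz {U : Finset (ℤ × ℤ)} {r : ℕ} (hU : IsSlit U r) (v : ℤ × ℤ) :
    dz (nz U) v = (if v = (0, 0) then 1 else 0) - (if v = ((r : ℤ), 0) then 1 else 0) := by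
  obtain ⟨a, b⟩ := v
  have hr : (0 : ℤ) < r := by exact_mod_cast hU.r_pos
  unfold dz nz bs lf rt
  simp only [if_true, Bool.false_eq_true, if_false, Prod.mk.injEq]
  rcases lt_trichotomy b 0 with hb | hb | hb
  · have h1 : b - 1 < 0 := by omega
    have h2 : b ≠ 0 := by omega
    simp [hb, h1, h2]
  · subst hb
    have h1 : ¬ ((0 : ℤ) < 0) := lt_irrefl _
    have h2 : (-1 : ℤ) < 0 := by norm_num
    have e0 : (0 : ℤ) - 1 = -1 := by norm_num
    have r1 := hU.row (a - 1)
    have r2 := hU.row a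
    simp only [e0, and_true]
    rw [if_neg h1, if_neg h1, if_neg h1, if_pos h2]
    have key : ((if (a - 1, (-1 : ℤ)) ∈ U then 0 else 1) : ℤ) -
        (if (a, (-1 : ℤ)) ∈ U then 0 else 1) =
        (if a = 0 then 1 else 0) - (if a = (r : ℤ) then 1 else 0) := by
      by_cases c1 : a = 0
      · have k1 : (a - 1, (-1 : ℤ)) ∉ U := by rw [r1]; omega
        have k2 : (a, (-1 : ℤ)) ∈ U := by rw [r2]; omega
        have k3 : a ≠ r := by omega
        rw [if_neg k1, if_pos k2, if_pos c1, if_neg k3]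
      · by_cases c2 : a = r
        · have k1 : (a - 1, (-1 : ℤ)) ∈ U := by rw [r1]; omega
          have k2 : (a, (-1 : ℤ)) ∉ U := by rw [r2]; omega
          rw [if_pos k1, if_neg k2, if_neg c1, if_pos c2]
        · have k : ((a - 1, (-1 : ℤ)) ∈ U) ↔ ((a, (-1 : ℤ)) ∈ U) := by
            rw [r1, r2]
            omega
          rw [if_neg c1, if_neg c2]
          by_cases k4 : (a, (-1 : ℤ)) ∈ U
          · rw [if_pos k4, if_pos (k.2 k4)]
          · rw [if_neg k4, if_neg fun h => k4 (k.1 h)]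
            norm_num
    linarith
  · have h1 : ¬ b < 0 := by omega
    have h2 : ¬ b - 1 < 0 := by omega
    have h3 : b ≠ 0 := by omega
    simp only [h1, h2, h3, if_false, and_false]
    ring

end dom

end Vale.Agent.P159.T1.H857
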