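import Vale.Agent.P159.T1.H857.StarZ
import Vale.Agent.P159.T1.H857.Block

/-!
Duality for the planar domains of `StarZ`: `isDual_Z`, `joined_Z`, and the lower bound of the
two-point function of `ℤ²` by the ratio of the height sums (`ratio_le_corrInf`).
-/

open MeasureTheory Filter Topology

namespace Vale.Agent.P159.T1.H857

open Vale.Agent.P159 Vale.Agent.P159.R2.H254 Vale.Agent.P159.T1.H254 Vale.Agent.P159.T1.D
open Vale.Agent.P159.H353 (wI wI_nonneg)

section dom

variable {U : Finset (ℤ × ℤ)}

/-- extension by `0` -/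
def ext0 (n : DE U → ℤ) (e : Bnd) : ℤ := if h : e ∈ bd U then n ⟨e, h⟩ else 0

lemma ext0_mem (n : DE U → ℤ) (e : DE U) : ext0 n e.1 = n e := by
  unfold ext0
  rw [dif_pos e.2]

lemma ext0_not (n : DE U → ℤ) {e : Bnd} (h : e ∉ bd U) : ext0 n e = 0 := by
  unfold ext0
  rw [dif_neg h]

lemma bs_eq {e : Bnd} {v : ℤ × ℤ} : bs e = v ↔ e = (v, false) ∨ e = (v, true) := by
  obtain ⟨z, d⟩ := e
  unfold bs
  cases d <;> simp

lemma bt_eq {e : Bnd} {v : ℤ × ℤ} :
    bt e = v ↔ e = ((v.1 - 1, v.2), false) ∨ e = ((v.1, v.2 - 1), true) := by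
  obtain ⟨⟨i, j⟩, d⟩ := e
  obtain ⟨a, b⟩ := v
  unfold bt
  cases d
  · simp only [Bool.false_eq_true, if_false, Prod.mk.injEq, and_true, and_false, or_false]
    omega
  · simp only [if_true, Prod.mk.injEq, and_true, Bool.true_eq_false, and_false, false_or]
    omega

lemma sum_pick1 (n : DE U → ℤ) (e0 : Bnd) (c : ℤ) :
    ∑ e ∈ bd U, (if e = e0 then c * ext0 n e else 0) = c * ext0 n e0 := by
  rw [Finset.sum_ite_eq' (bd U) e0]
  by_cases h : e0 ∈ bd U
  · rw [if_pos h]
  · rw [if_neg h, ext0_not n h, mul_zero]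

lemma dvA_dz (n : DE U → ℤ) (v : DA U) : dvA pD qD n v = dz (ext0 n) v.1 := by
  unfold dvA
  have h1 : ∀ e : DE U, ((if pD e = v then n e else 0) + (if qD e = v then -n e else 0)) =
      (fun e : Bnd => (if bs e = v.1 then ext0 n e else 0) +
        (if bt e = v.1 then -ext0 n e else 0)) e.1 := by
    intro e
    simp only
    rw [ext0_mem]
    have e1 : pD e = v ↔ bs e.1 = v.1 := by
      unfold pD
      rw [Subtype.ext_iff]
    have e2 : qD e = v ↔ bt e.1 = v.1 := by
      unfold qD
      rw [Subtype.ext_iff]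
    simp only [e1, e2]
  rw [Finset.sum_congr rfl fun e _ => h1 e, Finset.sum_coe_sort (bd U) (fun e : Bnd =>
    (if bs e = v.1 then ext0 n e else 0) + (if bt e = v.1 then -ext0 n e else 0))]
  have h2 : ∀ e : Bnd, ((if bs e = v.1 then ext0 n e else 0) +
      (if bt e = v.1 then -ext0 n e else 0)) =
      (if e = (v.1, false) then 1 * ext0 n e else 0) +
      (if e = (v.1, true) then 1 * ext0 n e else 0) +
      (if e = ((v.1.1 - 1, v.1.2), false) then (-1) * ext0 n e else 0) +
      (if e = ((v.1.1, v.1.2 - 1), true) then (-1) * ext0 n e else 0) := by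
    intro e
    obtain ⟨z, d⟩ := e
    simp only [bs_eq, bt_eq]
    cases d
    · simp only [Prod.mk.injEq, and_true, Bool.false_eq_true, and_false, or_false, if_false,
        one_mul, add_zero, neg_one_mul]
    · simp only [Prod.mk.injEq, and_true, Bool.true_eq_false, and_false, false_or, if_false,
        one_mul, add_zero, neg_one_mul, zero_add]
  rw [Finset.sum_congr rfl fun e _ => h2 e, Finset.sum_add_distrib, Finset.sum_add_distrib,
    Finset.sum_add_distrib, sum_pick1, sum_pick1, sum_pick1, sum_pick1]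
  unfold dz
  ring

lemma nz_off {e : Bnd} (h : e ∉ bd U) : nz U e = 0 := by
  rw [mem_bd, not_or] at h
  unfold nz
  rw [if_neg h.1, if_neg h.2]
  simp

lemma dz_add (n m : Bnd → ℤ) (k : ℤ) (v : ℤ × ℤ) :
    dz (fun e => n e + k * m e) v = dz n v + k * dz m v := by
  unfold dz
  ring

lemma zero_mem_AU {r : ℕ} (hU : IsSlit U r) : ((0 : ℤ), (0 : ℤ)) ∈ AU U := by
  have h1 : ((0 : ℤ), (-1 : ℤ)) ∈ U := (hU.row 0).2 ⟨le_rfl, by exact_mod_cast hU.r_pos⟩
  have h2 : (((0, 0), false) : Bnd) ∈ bd U := mem_bd.2 (Or.inr (by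
    unfold rt
    simpa using h1))
  exact bs_mem ⟨_, h2⟩

lemma r_mem_AU {r : ℕ} (hU : IsSlit U r) : ((r : ℤ), (0 : ℤ)) ∈ AU U := by
  have hr : (0 : ℤ) < r := by exact_mod_cast hU.r_pos
  have h1 : ((r : ℤ) - 1, (-1 : ℤ)) ∈ U := (hU.row _).2 ⟨by omega, by omega⟩
  have h2 : ((((r : ℤ) - 1, 0), false) : Bnd) ∈ bd U := mem_bd.2 (Or.inr (by
    unfold rt
    simpa using h1))
  have h3 := bt_mem ⟨_, h2⟩
  unfold bt at h3
  simpa using h3

/-- the site `(0, 0)` -/
def xD {r : ℕ} (hU : IsSlit U r) : DA U := ⟨(0, 0), zero_mem_AU hU⟩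

/-- the site `(r, 0)` -/
def yD {r : ℕ} (hU : IsSlit U r) : DA U := ⟨((r : ℤ), 0), r_mem_AU hU⟩

lemma chg_D {r : ℕ} (hU : IsSlit U r) (k : ℤ) (v : DA U) :
    chg (xD hU) (yD hU) k v = k * dz (nz U) v.1 := by
  rw [dz_nz hU]
  unfold chg xD yD
  simp only [Subtype.ext_iff]
  split_ifs <;> ring

lemma exists_left (U : Finset (ℤ × ℤ)) : ∃ M : ℤ, ∀ f ∈ U, M ≤ f.1 := by
  obtain ⟨M, hM⟩ := (U.image fun f => -f.1).exists_le
  refine ⟨-M, fun f hf => ?_⟩
  have := hM _ (Finset.mem_image_of_mem _ hf)
  omega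

lemma not_mem_bd_left {M : ℤ} (hM : ∀ f ∈ U, M ≤ f.1) {e : Bnd} (he : e.1.1 < M) : e ∉ bd U := by
  rw [mem_bd, not_or]
  obtain ⟨⟨i, j⟩, d⟩ := e
  simp only at he
  unfold lf rt
  cases d
  · simp only [Bool.false_eq_true, if_false]
    exact ⟨fun h => by have := hM _ h; simp only at this; omega,
      fun h => by have := hM _ h; simp only at this; omega⟩
  · simp only [if_true]
    exact ⟨fun h => by have := hM _ h; simp only at this; omega,
      fun h => by have := hM _ h; simp only at this; omega⟩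

/-- currents with charges `k` at `(0, 0)` and `-k` at `(r, 0)` are gradients of heights which vanish
off `U`, shifted by the reference current -/
theorem exact_U {r : ℕ} (hU : IsSlit U r) (k : ℤ) (n : DE U → ℤ) :
    (∀ v, chg (xD hU) (yD hU) k v + dvA pD qD n v = 0) ↔
      ∃ H : ℤ × ℤ → ℤ, (∀ f, f ∉ U → H f = 0) ∧ ∀ e : DE U, dh H e.1 - k * nz U e.1 = n e := by
  constructor
  · intro hn
    obtain ⟨M, hM⟩ := exists_left U
    obtain ⟨H, hH0, hH⟩ := exact_z (n := fun e => ext0 n e + k * nz U e) M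
      (fun e he => by
        have h1 := not_mem_bd_left hM he
        show ext0 n e + k * nz U e = 0
        rw [ext0_not n h1, nz_off h1]
        ring)
      (fun v => by
        rw [dz_add]
        by_cases hv : v ∈ AU U
        · have h1 := hn ⟨v, hv⟩
          rw [chg_D, dvA_dz] at h1
          simp only at h1
          linarith
        · have h1 : ∀ e : Bnd, (bs e = v ∨ bt e = v) → e ∉ bd U := by
            rintro e (h | h) he
            · exact hv (h ▸ bs_mem ⟨e, he⟩)
            · exact hv (h ▸ bt_mem ⟨e, he⟩)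
          have k1 := h1 (v, false) (Or.inl (bs_eq.2 (Or.inl rfl)))
          have k2 := h1 (v, true) (Or.inl (bs_eq.2 (Or.inr rfl)))
          have k3 := h1 ((v.1 - 1, v.2), false) (Or.inr (bt_eq.2 (Or.inl rfl)))
          have k4 := h1 ((v.1, v.2 - 1), true) (Or.inr (bt_eq.2 (Or.inr rfl)))
          unfold dz
          rw [ext0_not n k1, ext0_not n k2, ext0_not n k3, ext0_not n k4, nz_off k1, nz_off k2,
            nz_off k3, nz_off k4]
          ring)
    refine ⟨H, fun f hf => ?_, fun e => ?_⟩
    · obtain ⟨g, hg, hp⟩ := hU.conn M f hf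
      rw [← hH0 g hg]
      clear hg
      induction hp with
      | refl => rfl
      | @tail a b _ hab ih =>
        obtain ⟨ha, hb, e, he⟩ := hab
        rw [ih]
        have h2 : e ∉ bd U := by
          rw [mem_bd, not_or]
          rcases he with ⟨h3, h4⟩ | ⟨h3, h4⟩
          · rw [h3, h4]
            exact ⟨ha, hb⟩
          · rw [h3, h4]
            exact ⟨hb, ha⟩
        have h1 := hH e
        rw [ext0_not n h2, nz_off h2] at h1
        unfold dh at h1
        rcases he with ⟨h3, h4⟩ | ⟨h3, h4⟩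
        · rw [h3, h4] at h1
          linarith
        · rw [h3, h4] at h1
          linarith
    · have h1 := hH e.1
      rw [ext0_mem] at h1
      linarith
  · rintro ⟨H, h0, h1⟩ v
    have key : ext0 n = fun e => dh H e + (-k) * nz U e := by
      funext e
      by_cases he : e ∈ bd U
      · have e3 := h1 ⟨e, he⟩
        rw [ext0_mem n ⟨e, he⟩, ← e3]
        ring
      · rw [ext0_not n he, nz_off he]
        rw [mem_bd, not_or] at he
        unfold dh
        rw [h0 _ he.1, h0 _ he.2]
        ring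
    rw [chg_D, dvA_dz, key, dz_add, dz_dh]
    ring

/-- **exactness for planar domains** -/
theorem isDual_Z {r : ℕ} (hU : IsSlit U r) :
    IsDual (pD (U := U)) qD sD tD (omD U) (opD U) (xD hU) (yD hU) := by
  intro k n
  rw [exact_U hU]
  constructor
  · rintro ⟨H, hoff, hH⟩
    refine ⟨Sum.elim (fun f => H f.1 + k) (fun sd => if sd then k else 0), rfl, rfl,
      fun e => ?_⟩
    have h1 := hH e
    unfold dh nz at h1
    unfold tD sD sdz
    by_cases hl : lf e.1 ∈ U <;> by_cases hr : rt e.1 ∈ U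
    · rw [fV_mem hl, fV_mem hr]
      simp only [Sum.elim_inl]
      rw [if_pos hl, if_pos hr] at h1
      simp at h1
      linarith
    · rw [fV_mem hl, fV_not hr]
      simp only [Sum.elim_inl, Sum.elim_inr]
      rw [hoff _ hr, if_pos hl, if_neg hr] at h1
      by_cases hb : (bs e.1).2 < 0
      · rw [if_pos hb] at h1
        rw [if_pos (decide_eq_true hb)]
        linarith
      · rw [if_neg hb] at h1
        rw [if_neg (by simpa using hb)]
        linarith
    · rw [fV_not hl, fV_mem hr]
      simp only [Sum.elim_inl, Sum.elim_inr]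
      rw [hoff _ hl, if_neg hl, if_pos hr] at h1
      by_cases hb : (bs e.1).2 < 0
      · rw [if_pos hb] at h1
        rw [if_pos (decide_eq_true hb)]
        linarith
      · rw [if_neg hb] at h1
        rw [if_neg (by simpa using hb)]
        linarith
    · exact absurd e.2 (by rw [mem_bd]; tauto)
  · rintro ⟨h, h1, h2, h3⟩
    obtain ⟨H, hHdef⟩ : ∃ H : ℤ × ℤ → ℤ, H = fun f => if hf : f ∈ U then h (Sum.inl ⟨f, hf⟩) - k
      else 0 := ⟨_, rfl⟩
    have hin : ∀ f (hf : f ∈ U), H f = h (Sum.inl ⟨f, hf⟩) - k := fun f hf => by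
      rw [hHdef]
      simp only
      rw [dif_pos hf]
    have hout : ∀ f, f ∉ U → H f = 0 := fun f hf => by
      rw [hHdef]
      simp only
      rw [dif_neg hf]
    refine ⟨H, hout, fun e => ?_⟩
    rw [← h3 e]
    unfold tD sD dh nz sdz
    by_cases hl : lf e.1 ∈ U <;> by_cases hr : rt e.1 ∈ U
    · rw [fV_mem hl, fV_mem hr, hin _ hl, hin _ hr, if_pos hl, if_pos hr]
      simp
    · rw [fV_mem hl, fV_not hr, hin _ hl, hout _ hr, if_pos hl, if_neg hr]
      by_cases hb : (bs e.1).2 < 0
      · rw [decide_eq_true hb, if_pos hb]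
        have : h (Sum.inr true) = k := h2
        rw [this]
        ring
      · rw [decide_eq_false hb, if_neg hb]
        have : h (Sum.inr false) = 0 := h1
        rw [this]
        ring
    · rw [fV_not hl, fV_mem hr, hout _ hl, hin _ hr, if_neg hl, if_pos hr]
      by_cases hb : (bs e.1).2 < 0
      · rw [decide_eq_true hb, if_pos hb]
        have : h (Sum.inr true) = k := h2
        rw [this]
        ring
      · rw [decide_eq_false hb, if_neg hb]
        have : h (Sum.inr false) = 0 := h1
        rw [this]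
        ring
    · exact absurd e.2 (by rw [mem_bd]; tauto)

/-- every face is joined to the outer face -/
theorem joined_Z (U : Finset (ℤ × ℤ)) : Joined (sD (U := U)) tD (omD U) (opD U) ∅ := by
  refine ⟨Finset.notMem_empty _, Finset.notMem_empty _, fun v _ => ?_⟩
  obtain ⟨M, hM⟩ := exists_left U
  have key : ∀ (k : ℕ) (f : ℤ × ℤ) (hf : f ∈ U), f.1 < M + k →
      Relation.ReflTransGen (adjS (sD (U := U)) tD ∅) (omD U) (Sum.inl ⟨f, hf⟩) ∨
        Relation.ReflTransGen (adjS (sD (U := U)) tD ∅) (opD U) (Sum.inl ⟨f, hf⟩) := by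
    intro k
    induction k with
    | zero =>
      intro f hf h
      have := hM f hf
      push_cast at h
      omega
    | succ k ih =>
      intro f hf h
      have hrt : rt ((f, true) : Bnd) = f := rfl
      have he : ((f, true) : Bnd) ∈ bd U := mem_bd.2 (Or.inr hf)
      have hs : sD (U := U) ⟨_, he⟩ = Sum.inl ⟨f, hf⟩ := by
        unfold sD
        exact fV_mem (U := U) hf
      by_cases hl : lf ((f, true) : Bnd) ∈ U
      · have ht : tD (U := U) ⟨_, he⟩ = Sum.inl ⟨_, hl⟩ := by
          unfold tD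
          exact fV_mem (U := U) hl
        have hstep : adjS (sD (U := U)) tD ∅ (Sum.inl ⟨_, hl⟩) (Sum.inl ⟨f, hf⟩) :=
          ⟨Finset.notMem_empty _, Finset.notMem_empty _, ⟨_, he⟩, Or.inr ⟨hs, ht⟩⟩
        rcases ih _ hl (by
          show f.1 - 1 < M + k
          push_cast at h
          omega) with h1 | h1
        · exact Or.inl (h1.tail hstep)
        · exact Or.inr (h1.tail hstep)
      · have ht : tD (U := U) ⟨_, he⟩ = Sum.inr (sdz (f, true)) := by
          unfold tD
          exact fV_not (U := U) hl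
        have hstep : adjS (sD (U := U)) tD ∅ (Sum.inr (sdz (f, true))) (Sum.inl ⟨f, hf⟩) :=
          ⟨Finset.notMem_empty _, Finset.notMem_empty _, ⟨_, he⟩, Or.inr ⟨hs, ht⟩⟩
        cases hsd : sdz (f, true) with
        | true =>
          rw [hsd] at hstep
          exact Or.inr (Relation.ReflTransGen.single hstep)
        | false =>
          rw [hsd] at hstep
          exact Or.inl (Relation.ReflTransGen.single hstep)
  rcases v with ⟨f, hf⟩ | b
  · exact key (f.1 - M + 1).toNat f hf (by omega)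
  · cases b
    · exact Or.inl Relation.ReflTransGen.refl
    · exact Or.inr Relation.ReflTransGen.refl

end dom

end Vale.Agent.P159.T1.H857
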