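import Vale.Agent.P159.T1.H857.FkgProd
import Vale.Agent.P159.T1.H565.UW2i

/-!
Product form of the unwiring inequality: all blocks `B i` are deleted at once; the cost is at most
the product over the blocks of `P(T i ≤ g i · h) - exp (lam i ^ 2 * v i - lam i * (T i - ∑ g i))`
(plan 109 of helper568; positive association of the events that the `{h ≤ 0}` cluster misses
`B i`).
-/

open Filter Topology

namespace Vale.Agent.P159.T1.H857

open Vale.Agent.P159.H353 Vale.Agent.P159.T1.H254 Vale.Agent.P159.T1.H565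

/-- row LIM (helper669) -/
def StmtLimW : Prop :=
  ∀ (V E : Type) [Fintype V] [DecidableEq V] [Fintype E] [DecidableEq E] (s t : E → V)
    (J : E → ℝ) (om op : V), (∀ e, 0 ≤ J e) → Joined s t om op ∅ →
    (∀ S : Finset V, Joined s t om op S → ∀ k : ℤ,
      Tendsto (fun m : ℕ => ZS s t (fun e => kerP (J e / (2 * m)) m) om op S k) atTop
        (𝓝 (ZS s t (fun e => wI (J e)) om op S k))) ∧
    ∀ Q : (V → ℤ) → Prop, (∀ h, Q h → h om = 0 ∧ h op = 0) → Tendsto
      (fun m : ℕ => ZW s t (fun e => kerP (J e / (2 * m)) m) Q) atTop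
        (𝓝 (ZW s t (fun e => wI (J e)) Q))

/-- **the product form of the unwiring inequality** -/
def StmtUWE : Prop :=
  ∀ (V E : Type) [Fintype V] [DecidableEq V] [Fintype E] [DecidableEq E] (s t : E → V)
    (J : E → ℝ) (om op : V) (ι : Type) [DecidableEq ι] (S : Finset ι) (B : ι → Finset V)
    (g : ι → V → ℝ) (T v lam : ι → ℝ), (∀ e, 0 < J e) →
    Joined s t om op ∅ → Joined s t om op (S.biUnion B) →
    (∀ i ∈ S, ∀ x, 0 ≤ g i x) → (∀ i ∈ S, 0 ≤ lam i) →
    (∀ i ∈ S, FlowL s t om op (B i) (g i) J (v i) (lam i)) →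
    (∏ i ∈ S, max 0 (ZW s t (fun e => wI (J e)) (QT om op (g i) (T i)) /
        ZS s t (fun e => wI (J e)) om op ∅ 0 -
          Real.exp (lam i ^ 2 * v i - lam i * (T i - ∑ x, g i x)))) *
      (ZS s t (fun e => wI (J e)) om op ∅ 0 *
        ZS s t (fun e => wI (J e)) om op (S.biUnion B) 1) ≤
      ZS s t (fun e => wI (J e)) om op ∅ 1 *
        ZS s t (fun e => wI (J e)) om op (S.biUnion B) 0

lemma summable_ker (β : ℝ) : Summable fun n => |H254.ker 1 β n| := by
  refine summable_of_ne_finset_zero (s := {-1, 0, 1}) fun n hn => ?_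
  have : H254.ker 1 β n = 0 := by
    by_contra h
    have h1 := H565.ker_supp h
    simp only [Finset.mem_insert, Finset.mem_singleton, not_or] at hn
    have h2 := abs_le.1 h1
    omega
  rw [this, abs_zero]

section

variable {V E : Type} [Fintype V] [DecidableEq V] [Fintype E] [DecidableEq E]
variable {s t : E → V} {om op : V}

omit [Fintype V] [Fintype E] [DecidableEq E] in
lemma BI_biUnion {ι : Type} (S : Finset ι) (B : ι → Finset V) [DecidableEq E] (k : ℕ) :
    BI E k (S.biUnion B) = S.biUnion fun i => BI E k (B i) := by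
  ext z
  rcases z with v | p
  · simp [BI]
  · simp [BI]

/-- the inequality for the `k + 1`-fold subdivision -/
theorem uwE_finite (hc : StmtCheb) {J : E → ℝ} {ι : Type} [DecidableEq ι] (S : Finset ι)
    (B : ι → Finset V) (g : ι → V → ℝ) (T v lam : ι → ℝ) (k : ℕ)
    (hJ : ∀ e, 0 < J e ∧ 16 * J e ≤ ((k + 1 : ℕ) : ℝ))
    (hJ0 : Joined s t om op ∅) (hJB : Joined s t om op (S.biUnion B))
    (hg : ∀ i ∈ S, ∀ x, 0 ≤ g i x) (hl : ∀ i ∈ S, 0 ≤ lam i)
    (hF : ∀ i ∈ S, FlowL s t om op (B i) (g i) J (v i) (lam i)) :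
    (∏ i ∈ S, max 0 (ZW s t (fun e => kerP (J e / (2 * ((k + 1 : ℕ) : ℝ))) (k + 1))
        (QT om op (g i) (T i)) /
        ZS s t (fun e => kerP (J e / (2 * ((k + 1 : ℕ) : ℝ))) (k + 1)) om op ∅ 0 -
          Real.exp (lam i ^ 2 * v i - lam i * (T i - ∑ x, g i x)))) *
      (ZS s t (fun e => kerP (J e / (2 * ((k + 1 : ℕ) : ℝ))) (k + 1)) om op ∅ 0 *
        ZS s t (fun e => kerP (J e / (2 * ((k + 1 : ℕ) : ℝ))) (k + 1)) om op (S.biUnion B) 1) ≤
      ZS s t (fun e => kerP (J e / (2 * ((k + 1 : ℕ) : ℝ))) (k + 1)) om op ∅ 1 *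
        ZS s t (fun e => kerP (J e / (2 * ((k + 1 : ℕ) : ℝ))) (k + 1)) om op (S.biUnion B) 0 := by
  have hk : (0 : ℝ) < ((k + 1 : ℕ) : ℝ) := by exact_mod_cast Nat.succ_pos k
  have hβ : ∀ e, 0 < J e / (2 * ((k + 1 : ℕ) : ℝ)) ∧ J e / (2 * ((k + 1 : ℕ) : ℝ)) ≤ 1 / 2 := by
    intro e
    refine ⟨div_pos (hJ e).1 (by positivity), ?_⟩
    rw [div_le_div_iff₀ (by positivity) (by norm_num)]
    have := (hJ e).2
    have := (hJ e).1
    linarith
  set β : E → ℝ := fun e => J e / (2 * ((k + 1 : ℕ) : ℝ)) with hβdef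
  have hJs := joined_sub k hJ0
  have w0 : ∀ (p : E × Fin (k + 1)) (n : ℤ), 0 ≤ H254.ker 1 (β p.1) n := fun p n =>
    H565.ker_nonneg (hβ p.1).1.le n
  have hsum : ∀ p : E × Fin (k + 1), Summable fun n => |H254.ker 1 (β p.1) n| := fun p =>
    summable_ker _
  have h00 : ∀ p : E × Fin (k + 1), 0 < H254.ker 1 (β p.1) 0 := fun p => by
    rw [H565.ker_zero]
    exact one_pos
  -- the partition function is the same
  have eZ : ZS (sS s k) (tS t k) (fun p => H254.ker 1 (β p.1)) (Sum.inl om) (Sum.inl op) ∅ 0 =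
      ZS s t (fun e => kerP (β e) (k + 1)) om op ∅ 0 := by
    rw [ZS_ZW, ZS_ZW]
    exact coarse_sub s t k (fun e => (hβ e).1.le) hJ0 (fun h => h om = 0 ∧ h op = 0)
      (fun h hq => hq)
  have hZ : 0 < ZS s t (fun e => kerP (β e) (k + 1)) om op ∅ 0 := by
    rw [← eZ]
    exact ZS_zero_pos w0 h00 hsum hJs
  have hprod := prod_miss (s := sS s k) (t := tS t k) (om := Sum.inl om) (op := Sum.inl op)
    (w := fun p => H254.ker 1 (β p.1)) w0
    (fun p => logC_ker (hβ p.1).1.le ((hβ p.1).2.trans (by norm_num))) h00 hsum hJs S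
    (fun i => BI E k (B i))
  rw [← BI_biUnion, eZ] at hprod
  have hfac : ∏ i ∈ S, max 0 (ZW s t (fun e => kerP (β e) (k + 1)) (QT om op (g i) (T i)) /
      ZS s t (fun e => kerP (β e) (k + 1)) om op ∅ 0 -
        Real.exp (lam i ^ 2 * v i - lam i * (T i - ∑ x, g i x))) ≤
      ∏ i ∈ S, (ZM (sS s k) (tS t k) (fun p => H254.ker 1 (β p.1)) (Sum.inl om) (Sum.inl op)
        (BI E k (B i)) / ZS s t (fun e => kerP (β e) (k + 1)) om op ∅ 0) := by
    refine Finset.prod_le_prod (fun i _ => le_max_left _ _) fun i hi => max_le ?_ ?_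
    · exact div_nonneg (tsum_nonneg fun h => Finset.prod_nonneg fun p _ => w0 p _) hZ.le
    · have h1 := miss_lower hc k hJ hJ0 (hg i hi) (hl i hi) (hF i hi) (T := T i)
      rw [← ZS_ZW] at h1
      rw [le_div_iff₀ hZ, sub_mul, div_mul_cancel₀ _ hZ.ne']
      exact h1
  have hall := hfac.trans hprod
  have hfin := uw2_sub_inl s t hβ k hJ0 hJB
  have h3 : 0 ≤ ZS s t (fun e => kerP (β e) (k + 1)) om op (S.biUnion B) 1 := by
    refine tsum_nonneg fun h => Finset.prod_nonneg fun e _ => ?_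
    split_ifs
    · exact zero_le_one
    · exact kerP_nonneg (hβ e).1.le _ _
  rw [le_div_iff₀ hZ] at hall
  calc (∏ i ∈ S, max 0 (ZW s t (fun e => kerP (β e) (k + 1)) (QT om op (g i) (T i)) /
      ZS s t (fun e => kerP (β e) (k + 1)) om op ∅ 0 -
        Real.exp (lam i ^ 2 * v i - lam i * (T i - ∑ x, g i x)))) *
      (ZS s t (fun e => kerP (β e) (k + 1)) om op ∅ 0 *
        ZS s t (fun e => kerP (β e) (k + 1)) om op (S.biUnion B) 1)
      = ((∏ i ∈ S, max 0 (ZW s t (fun e => kerP (β e) (k + 1)) (QT om op (g i) (T i)) /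
      ZS s t (fun e => kerP (β e) (k + 1)) om op ∅ 0 -
        Real.exp (lam i ^ 2 * v i - lam i * (T i - ∑ x, g i x)))) *
      ZS s t (fun e => kerP (β e) (k + 1)) om op ∅ 0) *
        ZS s t (fun e => kerP (β e) (k + 1)) om op (S.biUnion B) 1 := by ring
    _ ≤ ZM (sS s k) (tS t k) (fun p => H254.ker 1 (β p.1)) (Sum.inl om) (Sum.inl op)
        (BI E k (S.biUnion B)) * ZS s t (fun e => kerP (β e) (k + 1)) om op (S.biUnion B) 1 :=
        mul_le_mul_of_nonneg_right hall h3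
    _ ≤ _ := hfin

end

/-- the product form of the unwiring inequality, from the rows CHEB and LIM -/
theorem uwE_of (hc : StmtCheb) (hL : StmtLimW) : StmtUWE := by
  intro V E _ _ _ _ s t J om op ι _ S B g T v lam hJ hJ0 hJB hg hl hF
  obtain ⟨hS, hQ⟩ := hL V E s t J om op (fun e => (hJ e).le) hJ0
  have hZ : 0 < ZS s t (fun e => wI (J e)) om op ∅ 0 :=
    ZS_zero_pos (fun e n => wI_nonneg (hJ e).le n) (fun e => wI_zero_pos (hJ e).le)
      (fun e => (summable_wI (hJ e).le).abs) hJ0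
  have hfac : Tendsto (fun m : ℕ => ∏ i ∈ S, max 0 (ZW s t
      (fun e => kerP (J e / (2 * m)) m) (QT om op (g i) (T i)) /
        ZS s t (fun e => kerP (J e / (2 * m)) m) om op ∅ 0 -
          Real.exp (lam i ^ 2 * v i - lam i * (T i - ∑ x, g i x)))) atTop
      (𝓝 (∏ i ∈ S, max 0 (ZW s t (fun e => wI (J e)) (QT om op (g i) (T i)) /
        ZS s t (fun e => wI (J e)) om op ∅ 0 -
          Real.exp (lam i ^ 2 * v i - lam i * (T i - ∑ x, g i x))))) := by
    refine tendsto_finsetProd S fun i _ => ?_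
    refine tendsto_const_nhds.max (Tendsto.sub_const ?_ _)
    exact (hQ (QT om op (g i) (T i)) fun h hq => ⟨hq.1, hq.2.1⟩).div (hS ∅ hJ0 0) hZ.ne'
  have hLL := hfac.mul ((hS ∅ hJ0 0).mul (hS (S.biUnion B) hJB 1))
  have hRR := (hS ∅ hJ0 1).mul (hS (S.biUnion B) hJB 0)
  refine le_of_tendsto_of_tendsto hLL hRR ?_
  obtain ⟨N, hN⟩ := exists_nat_ge (∑ e, 16 * J e)
  filter_upwards [eventually_ge_atTop (max N 1)] with m hm
  obtain ⟨k, rfl⟩ : ∃ k, m = k + 1 := ⟨m - 1, by omega⟩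
  refine uwE_finite hc S B g T v lam k (fun e => ⟨hJ e, ?_⟩) hJ0 hJB hg hl hF
  have h4 : 16 * J e ≤ ∑ e, 16 * J e :=
    Finset.single_le_sum (f := fun e => 16 * J e) (fun e _ => by have := (hJ e).le; positivity)
      (Finset.mem_univ e)
  have h5 : (N : ℝ) ≤ ((k + 1 : ℕ) : ℝ) := by exact_mod_cast (le_max_left N 1).trans hm
  linarith

end Vale.Agent.P159.T1.H857
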